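import Vale.Agent.P233.H886.KantMain

/-! P233 RCDA, block T1: the cost `min (d²/2) δ`. -/

set_option linter.all false

open MeasureTheory Filter Topology Set
open scoped ENNReal NNReal

universe u

namespace Vale.Agent.P233.H886

variable {X : Type u} [MetricSpace X]

theorem min_sq_eq {a δ : ℝ} (ha : 0 ≤ a) (hδ : 0 ≤ δ) :
    min (a ^ 2 / 2) δ = (min a (√(2 * δ))) ^ 2 / 2 := by
  have h1 : √(2 * δ) ^ 2 = 2 * δ := Real.sq_sqrt (by positivity)
  rcases le_total a (√(2 * δ)) with h | h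
  · rw [min_eq_left h, min_eq_left]
    have : a ^ 2 ≤ √(2 * δ) ^ 2 := pow_le_pow_left₀ ha h 2
    linarith
  · rw [min_eq_right h, min_eq_right, h1]
    · ring
    · have : √(2 * δ) ^ 2 ≤ a ^ 2 := pow_le_pow_left₀ (Real.sqrt_nonneg _) h 2
      linarith

theorem abs_min_sq_sub {a b δ : ℝ} (ha : 0 ≤ a) (hb : 0 ≤ b) (hδ : 0 ≤ δ) :
    |min (a ^ 2 / 2) δ - min (b ^ 2 / 2) δ| ≤ √(2 * δ) * |a - b| := by
  rw [min_sq_eq ha hδ, min_sq_eq hb hδ]
  set s := √(2 * δ) with hs
  have hs0 : 0 ≤ s := Real.sqrt_nonneg _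
  have e : (min a s) ^ 2 / 2 - (min b s) ^ 2 / 2 = (min a s - min b s) * ((min a s + min b s) / 2) := by
    ring
  have h1 : |min a s - min b s| ≤ |a - b| := by
    have := abs_min_sub_min_le_max a s b s
    simpa using this
  have h2 : |(min a s + min b s) / 2| ≤ s := by
    have h3 : 0 ≤ min a s := le_min ha hs0
    have h4 : 0 ≤ min b s := le_min hb hs0
    have h5 : min a s ≤ s := min_le_right _ _
    have h6 : min b s ≤ s := min_le_right _ _
    rw [abs_of_nonneg (by linarith)]
    linarith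
  rw [e, abs_mul, mul_comm s]
  exact mul_le_mul h1 h2 (abs_nonneg _) (abs_nonneg _)

/-- the cost `c = min (d²/2) δ` is bounded by `δ` and `√(2δ)`-Lipschitz in each variable. -/
theorem cost_min {δ : ℝ} (hδ : 0 ≤ δ) :
    Cost (fun x y : X => min (dist x y ^ 2 / 2) δ) δ (√(2 * δ)) := by
  constructor
  · intro x y
    exact le_min (by positivity) hδ
  · intro x y
    exact min_le_right _ _
  · intro x x' y
    refine (abs_min_sq_sub dist_nonneg dist_nonneg hδ).trans ?_
    exact mul_le_mul_of_nonneg_left (abs_dist_sub_le x x' y) (Real.sqrt_nonneg _)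
  · intro x y y'
    refine (abs_min_sq_sub dist_nonneg dist_nonneg hδ).trans ?_
    refine mul_le_mul_of_nonneg_left ?_ (Real.sqrt_nonneg _)
    rw [dist_comm x y, dist_comm x y']
    exact abs_dist_sub_le y y' x

end Vale.Agent.P233.H886
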