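import Mathlib.Analysis.Seminorm

/-! P233 RCDA, block G9 (norm part): a seminorm with the midpoint comparison property satisfies the
parallelogram identity. -/

set_option linter.all false

namespace Vale.Agent.P233.H886

theorem parallelogram_le {E : Type*} [AddCommGroup E] [Module ℝ E] (N : Seminorm ℝ E)
    (h : ∀ a : E, ∃ w : E, ∀ q : E,
      (N (q - a) ^ 2 + N (q + a) ^ 2) / 2 - N a ^ 2 ≤ N (q - w) ^ 2) (y a : E) :
    N (y + a) ^ 2 + N (y - a) ^ 2 ≤ 2 * (N y ^ 2 + N a ^ 2) := by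
  obtain ⟨w, hw⟩ := h a
  have conv : ∀ u v : E, N ((2 : ℝ)⁻¹ • (u + v)) ^ 2 ≤ (N u ^ 2 + N v ^ 2) / 2 := by
    intro u v
    have h1 : N ((2 : ℝ)⁻¹ • (u + v)) ≤ (N u + N v) / 2 := by
      rw [map_smul_eq_mul]
      have := map_add_le_add N u v
      norm_num
      linarith
    have h0 : 0 ≤ N ((2 : ℝ)⁻¹ • (u + v)) := apply_nonneg N _
    nlinarith [sq_nonneg (N u - N v), apply_nonneg N u, apply_nonneg N v]
  have e1 := hw (y + w)
  have e2 := hw (-(y - w))
  have s1 : N (-(y - w) - a) = N (y - w + a) := by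
    rw [← map_neg_eq_map N]; congr 1; abel
  have s2 : N (-(y - w) + a) = N (y - w - a) := by
    rw [← map_neg_eq_map N]; congr 1; abel
  have s3 : N (-(y - w) - w) = N y := by
    rw [← map_neg_eq_map N]; congr 1; abel
  have s4 : N (y + w - w) = N y := by congr 1; abel
  rw [s1, s2, s3] at e2
  rw [s4] at e1
  have c1 := conv (y + w + a) (y - w + a)
  have c2 := conv (y + w - a) (y - w - a)
  have t1 : (2 : ℝ)⁻¹ • (y + w + a + (y - w + a)) = y + a := by
    have : y + w + a + (y - w + a) = (2 : ℝ) • (y + a) := by rw [two_smul]; abel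
    rw [this, smul_smul]; norm_num
  have t2 : (2 : ℝ)⁻¹ • (y + w - a + (y - w - a)) = y - a := by
    have : y + w - a + (y - w - a) = (2 : ℝ) • (y - a) := by rw [two_smul]; abel
    rw [this, smul_smul]; norm_num
  rw [t1] at c1
  rw [t2] at c2
  nlinarith

/-- **G9**: the midpoint comparison property implies the parallelogram identity. -/
theorem parallelogram {E : Type*} [AddCommGroup E] [Module ℝ E] (N : Seminorm ℝ E)
    (h : ∀ a : E, ∃ w : E, ∀ q : E,
      (N (q - a) ^ 2 + N (q + a) ^ 2) / 2 - N a ^ 2 ≤ N (q - w) ^ 2) (x y : E) :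
    N (x + y) ^ 2 + N (x - y) ^ 2 = 2 * (N x ^ 2 + N y ^ 2) := by
  apply le_antisymm (parallelogram_le N h x y)
  have h1 := parallelogram_le N h (x + y) (x - y)
  have e1 : x + y + (x - y) = (2 : ℝ) • x := by rw [two_smul]; abel
  have e2 : x + y - (x - y) = (2 : ℝ) • y := by rw [two_smul]; abel
  rw [e1, e2, map_smul_eq_mul, map_smul_eq_mul] at h1
  norm_num at h1
  nlinarith

/-- the form with two points `a`, `b` (metric form of the comparison at the midpoint). -/
theorem parallelogram' {E : Type*} [AddCommGroup E] [Module ℝ E] (N : Seminorm ℝ E)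
    (h : ∀ a b : E, ∃ w : E, ∀ q : E,
      (N (q - a) ^ 2 + N (q - b) ^ 2) / 2 - N (a - b) ^ 2 / 4 ≤ N (q - w) ^ 2) (x y : E) :
    N (x + y) ^ 2 + N (x - y) ^ 2 = 2 * (N x ^ 2 + N y ^ 2) := by
  apply parallelogram N
  intro a
  obtain ⟨w, hw⟩ := h a (-a)
  refine ⟨w, fun q => ?_⟩
  have h1 := hw q
  have e1 : a - -a = (2 : ℝ) • a := by rw [two_smul]; abel
  rw [e1, map_smul_eq_mul, sub_neg_eq_add] at h1
  norm_num at h1
  linarith

end Vale.Agent.P233.H886
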