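import Vale.Agent.P233.H103.Semi4

/-! P233, RCDA, part K: differentiation of gradient estimates at `t = 0`, and `BE(K,∞)` from the
gradient estimate for bounded Lipschitz functions. -/

set_option linter.all false

open MeasureTheory Filter Topology
open scoped ENNReal NNReal

namespace Vale.Agent.P233

variable {M : Type*} [MeasurableSpace M] {m : Measure M} {C : Calc m}

/-- an upper bound from integrated bounds, for `L²` classes -/
theorem le_const_of_forall_L2_pos {F : M →ₘ[m] ℝ} (hF : MemLp F 2 m) {K : ℝ} (hK : 0 < K)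
    (h : ∀ g : M →ₘ[m] ℝ, 0 ≤ g → MemLp g 2 m → MemLp g 1 m → I (F * g) ≤ K * I g) :
    ∀ᵐ x ∂m, F x ≤ K := by
  set θ : ℝ → ℝ := fun t => max (t - K) 0 with hθ
  have hθc : Continuous θ := by fun_prop
  set g := AEEqFun.comp θ hθc F with hg
  have hae : ∀ᵐ x ∂m, g x = max (F x - K) 0 := AEEqFun.coeFn_comp θ hθc F
  have h0 : 0 ≤ g := by
    rw [nonneg_iff_ae]
    filter_upwards [hae] with x hx
    rw [hx]; exact le_max_right _ _
  have h2 : MemLp g 2 m := by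
    refine mem_of_le hF ?_
    filter_upwards [hae] with x hx
    rw [hx, abs_of_nonneg (le_max_right _ _)]
    exact max_le (by linarith [le_abs_self (F x)]) (abs_nonneg _)
  have h1 : MemLp g 1 m := by
    refine mem_of_le (mem_smul K⁻¹ (mem_sq hF)) ?_
    filter_upwards [hae, smul_ae (F ^ 2) K⁻¹, sq_ae F] with x a b c
    rw [a, b, c, abs_of_nonneg (le_max_right _ _), abs_of_nonneg (by positivity)]
    refine max_le ?_ (by positivity)
    rw [inv_mul_eq_div, le_div_iff₀ hK]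
    nlinarith [sq_nonneg (F x - K), sq_nonneg (F x)]
  have h3 := h g h0 h2 h1
  have h4 : I (g ^ 2) = I (F * g) - K * I g := by
    rw [← I_smul, ← I_sub (mem_mul_22 hF h2) (mem_smul _ h1)]
    unfold I
    refine integral_congr_ae ?_
    filter_upwards [hae, sq_ae g, sub_ae (F * g) (K • g), mul_ae F g, smul_ae g K] with x a b c d e
    rw [b, c, d, e]
    have : g x * (g x - (F x - K)) = 0 := by
      rcases le_total (F x - K) 0 with hh | hh
      · rw [a, max_eq_right hh]; ring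
      · rw [a, max_eq_left hh]; ring
    linarith
  have h5 : g = 0 := I_sq_eq_zero h2 (le_antisymm (by linarith) (I_sq_nonneg g))
  rw [eq_iff_ae] at h5
  filter_upwards [h5, hae, zero_ae (M := M) (m := m)] with x a b c
  rw [a, c] at b
  have := le_max_left (F x - K) 0
  linarith

namespace IsDir

variable (hC : IsDir C) {s t K a : ℝ} {f g h φ ψ : M →ₘ[m] ℝ}
include hC

theorem P_sub_bd_aux (ht : 0 < t) {L : ℝ} (hL : 0 < L) (hfh : C.IsLap φ ψ)
    (hb : ∀ᵐ x ∂m, |ψ x| ≤ L) : ∀ᵐ x ∂m, (C.P t φ - φ) x ≤ t * L := by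
  have hφ2 := hC.memLp _ hfh.1
  refine le_const_of_forall_L2_pos (mem_sub (hC.P_mem2 t hφ2) hφ2) (mul_pos ht hL) ?_
  intro g h0 h2 h1
  have e := hC.P_integral ht.le hfh h2
  rw [sub_mul, I_sub (mem_mul_22 (hC.P_mem2 t hφ2) h2) (mem_mul_22 hφ2 h2), ← e]
  have hb' : ∀ s ∈ Set.Icc (0 : ℝ) t, I (C.P s ψ * g) ≤ L * I g := by
    intro s hs
    have hPb := hC.P_bdd hs.1 hfh.2.1 hb
    rw [← I_smul]
    refine I_mono (mem_mul_top (mem_top_iff.2 ⟨L, hPb⟩) h1) (mem_smul _ h1) ?_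
    rw [le_iff_ae]
    rw [nonneg_iff_ae] at h0
    filter_upwards [mul_ae (C.P s ψ) g, smul_ae g L, hPb, h0] with x a b c d
    rw [a, b]
    exact mul_le_mul_of_nonneg_right ((le_abs_self _).trans c) d
  have h7 := intervalIntegral.integral_mono_on ht.le
    ((hC.P_cont_I hfh.2.1 h2).intervalIntegrable (μ := volume) 0 t)
    (intervalIntegrable_const (c := L * I g)) hb'
  rw [intervalIntegral.integral_const, smul_eq_mul, sub_zero] at h7
  linarith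

/-- `|P_t φ - φ| ≤ t ‖Δφ‖_∞` -/
theorem P_sub_bd (ht : 0 < t) {L : ℝ} (hL : 0 < L) (hfh : C.IsLap φ ψ)
    (hb : ∀ᵐ x ∂m, |ψ x| ≤ L) : ∀ᵐ x ∂m, |(C.P t φ - φ) x| ≤ t * L := by
  have hφ2 := hC.memLp _ hfh.1
  have h1 := hC.P_sub_bd_aux ht hL hfh hb
  have hneg : C.IsLap (-φ) (-ψ) := by simpa using hC.isLap_smul (-1) hfh
  have h2 := hC.P_sub_bd_aux ht hL hneg (by
    filter_upwards [hb, neg_ae ψ] with x a b
    rwa [b, abs_neg])
  rw [hC.P_neg t hφ2] at h2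
  filter_upwards [h1, h2, sub_ae (C.P t φ) φ, sub_ae (-C.P t φ) (-φ), neg_ae (C.P t φ), neg_ae φ]
    with x a b c d e f
  rw [d, e, f] at b
  rw [c] at a ⊢
  rw [abs_le]
  constructor <;> linarith

/-- the difference quotients of `P_t φ` converge boundedly a.e. along a sequence -/
theorem exists_seq_Tb (hfh : C.IsLap φ ψ) (hψ : MemLp ψ ∞ m) : ∃ ns : ℕ → ℕ, StrictMono ns ∧
    Tb (fun n => ((ns n : ℝ) + 1) • (C.P ((ns n : ℝ) + 1)⁻¹ φ - φ)) ψ := by
  have hφ2 := hC.memLp _ hfh.1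
  obtain ⟨L, hL⟩ := mem_top_iff.1 hψ
  have hs : Tendsto (fun n : ℕ => ((n : ℝ) + 1)⁻¹) atTop (𝓝[Set.Ici 0 \ {0}] 0) := by
    rw [tendsto_nhdsWithin_iff]
    refine ⟨tendsto_inv_succ, Eventually.of_forall fun n => ⟨?_, ?_⟩⟩
    · exact (by positivity : (0 : ℝ) ≤ ((n : ℝ) + 1)⁻¹)
    · exact (by positivity : ((n : ℝ) + 1)⁻¹ ≠ 0)
  have h1 := (hC.P_derivD le_rfl hfh).comp hs
  have h2 : Tendsto (fun n : ℕ => I ((((n : ℝ) + 1) • (C.P ((n : ℝ) + 1)⁻¹ φ - φ) - ψ) ^ 2))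
      atTop (𝓝 0) := by
    refine h1.congr fun n => ?_
    simp only [Function.comp]
    rw [sub_zero, inv_inv, hC.P_zero_time hφ2, hC.P_zero_time hfh.2.1]
  obtain ⟨ns, hns, hae⟩ := exists_subseq_of_I_sq
    (fun n => mem_smul _ (mem_sub (hC.P_mem2 _ hφ2) hφ2)) hfh.2.1 h2
  refine ⟨ns, hns, ⟨|L| + 1, fun n => ?_⟩, hae⟩
  have hpos : (0 : ℝ) < (ns n : ℝ) + 1 := by positivity
  have h3 := hC.P_sub_bd (t := ((ns n : ℝ) + 1)⁻¹) (L := |L| + 1) (by positivity) (by positivity)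
    hfh (by filter_upwards [hL] with x hx using hx.trans (by linarith [le_abs_self L]))
  filter_upwards [h3, smul_ae (C.P ((ns n : ℝ) + 1)⁻¹ φ - φ) ((ns n : ℝ) + 1)] with x a b
  rw [b, abs_mul, abs_of_pos hpos]
  calc ((ns n : ℝ) + 1) * |(C.P ((ns n : ℝ) + 1)⁻¹ φ - φ) x|
      ≤ ((ns n : ℝ) + 1) * (((ns n : ℝ) + 1)⁻¹ * (|L| + 1)) :=
        mul_le_mul_of_nonneg_left a hpos.le
    _ = |L| + 1 := by field_simp

/-- convergence of the difference quotients of `P_t f` in `W` along `t = 1/(n+1)` -/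
theorem TW_quot (hfh : C.IsLap f h) (hh : h ∈ C.W) :
    C.TW (fun n : ℕ => ((n : ℝ) + 1) • (C.P ((n : ℝ) + 1)⁻¹ f - f)) h := by
  have hs : Tendsto (fun n : ℕ => ((n : ℝ) + 1)⁻¹) atTop (𝓝[Set.Ici 0 \ {0}] 0) := by
    rw [tendsto_nhdsWithin_iff]
    refine ⟨tendsto_inv_succ, Eventually.of_forall fun n => ⟨?_, ?_⟩⟩
    · exact (by positivity : (0 : ℝ) ≤ ((n : ℝ) + 1)⁻¹)
    · exact (by positivity : ((n : ℝ) + 1)⁻¹ ≠ 0)
  refine ⟨fun n => hC.smul_mem _ _ (hC.sub_mem (hC.P_memW _ hfh.1) hfh.1), hh, ?_⟩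
  refine ((hC.P_derivW le_rfl hfh hh).comp hs).congr fun n => ?_
  simp only [Function.comp]
  rw [sub_zero, inv_inv, hC.P_zero_time (hC.memLp _ hfh.1), hC.P_zero_time hfh.2.1]

/-- `P_t f → f` in `W` along `t = 1/(n+1)` -/
theorem TW_P (hf : f ∈ C.W) : C.TW (fun n : ℕ => C.P ((n : ℝ) + 1)⁻¹ f) f := by
  refine ⟨fun n => hC.P_memW _ hf, hf, ?_⟩
  refine ((hC.P_contW hf 0).comp tendsto_inv_succ).congr fun n => ?_
  simp only [Function.comp]
  rw [hC.P_zero_time (hC.memLp _ hf)]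

theorem TW.sub_seq {X : ℕ → M →ₘ[m] ℝ} {x : M →ₘ[m] ℝ} (h : C.TW X x) {ns : ℕ → ℕ}
    (hns : StrictMono ns) : C.TW (fun n => X (ns n)) x :=
  ⟨fun n => h.mem _, h.mem', h.lim.comp hns.tendsto_atTop⟩

theorem TW_add {X Y : ℕ → M →ₘ[m] ℝ} {x y : M →ₘ[m] ℝ} (h1 : C.TW X x) (h2 : C.TW Y y) :
    C.TW (fun n => X n + Y n) (x + y) := by
  refine ⟨fun n => hC.add_mem _ (h1.mem n) _ (h2.mem n), hC.add_mem _ h1.mem' _ h2.mem', ?_⟩
  refine squeeze_zero (fun n => hC.nrm2_nonneg (hC.sub_mem (hC.add_mem _ (h1.mem n) _ (h2.mem n))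
    (hC.add_mem _ h1.mem' _ h2.mem'))) (fun n => ?_)
    (by simpa using (h1.lim.const_mul 2).add (h2.lim.const_mul 2))
  have := hC.nrm2_add_le (hC.sub_mem (h1.mem n) h1.mem') (hC.sub_mem (h2.mem n) h2.mem')
  have e : X n - x + (Y n - y) = X n + Y n - (x + y) := by ring
  rwa [e] at this

/-- expansion of the left side of the Bochner inequality -/
theorem be_expand (hf : f ∈ C.W) (hh : h ∈ C.W) (hφ : MemLp φ ∞ m) (K a : ℝ) :
    I (φ * (C.Γ f h + K • C.Γ f f + a • h ^ 2))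
      = I (φ * C.Γ f h) + K * I (φ * C.Γ f f) + a * I (φ * h ^ 2) := by
  have h1 := mem_mul_top hφ (hC.Γ_mem1 hf hh)
  have h2 := mem_mul_top hφ (hC.mem1 f hf)
  have h3 := mem_mul_top hφ (mem_sq (hC.memLp h hh))
  have e : φ * (C.Γ f h + K • C.Γ f f + a • h ^ 2)
      = φ * C.Γ f h + K • (φ * C.Γ f f) + a • (φ * h ^ 2) := by
    rw [mul_add, mul_add, mul_smul_comm, mul_smul_comm]
  rw [e, I_add (mem_add h1 (mem_smul _ h2)) (mem_smul _ h3), I_add h1 (mem_smul _ h2), I_smul,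
    I_smul]

/-- Differentiation at `t = 0`. The variable `s` is half of the time. -/
theorem deriv_at_zero (hfh : C.IsLap f h) (hh : h ∈ C.W) (hφψ : C.IsLap φ ψ)
    (hφ : MemLp φ ∞ m) (hψ : MemLp ψ ∞ m) {c : ℝ → ℝ} (hc : Tendsto c (𝓝 0) (𝓝 a))
    (H : ∀ s : ℝ, 0 < s → Real.exp (2 * K * s) * I (φ * C.Γ (C.P s f) (C.P s f))
      + 2 * s * c s * I (φ * C.P s h ^ 2) ≤ I (C.P s φ * C.Γ f f)) :
    I (φ * (C.Γ f h + K • C.Γ f f + a • h ^ 2)) ≤ I ((2 : ℝ)⁻¹ • (C.Γ f f * ψ)) := by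
  have hf := hfh.1
  have hφ2 := hC.memLp _ hφψ.1
  rw [hC.be_expand hf hh hφ, I_smul, mul_comm (C.Γ f f) ψ]
  obtain ⟨ns, hns, hTb⟩ := hC.exists_seq_Tb hφψ hψ
  set r : ℕ → ℝ := fun n => ((ns n : ℝ) + 1)⁻¹ with hr
  have hrpos : ∀ n, 0 < r n := fun n => by simp only [hr]; positivity
  have hr0 : Tendsto r atTop (𝓝 0) := tendsto_inv_succ.comp hns.tendsto_atTop
  -- right side
  have R1 : Tendsto (fun n => I ((((ns n : ℝ) + 1) • (C.P (r n) φ - φ)) * C.Γ f f)) atTop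
      (𝓝 (I (ψ * C.Γ f f))) := by
    obtain ⟨B, hB⟩ := hTb.bd
    exact I_tendsto_of_bdd hB hTb.lim (hC.mem1 f hf)
  -- left side
  have hX := TW.sub_seq hC (hC.TW_quot hfh hh) hns
  have hY := hC.TW_add (TW.sub_seq hC (hC.TW_P hf) hns) (hC.TW_const hf)
  have L1 := hC.TW_Γ (Tb.const hφ) hX hY
  have e1 : ∀ n, I (φ * C.Γ (((ns n : ℝ) + 1) • (C.P (r n) f - f)) (C.P (r n) f + f))
      = ((ns n : ℝ) + 1) * (I (φ * C.Γ (C.P (r n) f) (C.P (r n) f)) - I (φ * C.Γ f f)) := by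
    intro n
    have hp := hC.P_memW (r n) hf
    have e : C.Γ (((ns n : ℝ) + 1) • (C.P (r n) f - f)) (C.P (r n) f + f)
        = ((ns n : ℝ) + 1) • (C.Γ (C.P (r n) f) (C.P (r n) f) - C.Γ f f) := by
      rw [hC.smul_left _ _ (hC.sub_mem hp hf) _ (hC.add_mem _ hp _ hf),
        hC.Γ_sub_left hp hf (hC.add_mem _ hp _ hf), hC.Γ_add_right hp hp hf,
        hC.Γ_add_right hf hp hf, hC.symm _ hf _ hp]
      congr 1
      ring
    rw [e, mul_smul_comm, I_smul, mul_sub, I_sub (mem_mul_top hφ (hC.mem1 _ hp))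
      (mem_mul_top hφ (hC.mem1 _ hf))]
  have e2 : I (φ * C.Γ h (f + f)) = 2 * I (φ * C.Γ f h) := by
    rw [hC.Γ_add_right hh hf hf, hC.symm _ hh _ hf, mul_add,
      I_add (mem_mul_top hφ (hC.Γ_mem1 hf hh)) (mem_mul_top hφ (hC.Γ_mem1 hf hh))]
    ring
  have L1' : Tendsto (fun n => ((ns n : ℝ) + 1) * (I (φ * C.Γ (C.P (r n) f) (C.P (r n) f))
      - I (φ * C.Γ f f))) atTop (𝓝 (2 * I (φ * C.Γ f h))) := by
    rw [← e2]
    refine L1.congr fun n => ?_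
    exact e1 n
  -- the energy term
  have F0 : Tendsto (fun n => I (φ * C.Γ (C.P (r n) f) (C.P (r n) f))) atTop
      (𝓝 (I (φ * C.Γ f f))) :=
    hC.TW_Γ (Tb.const hφ) (TW.sub_seq hC (hC.TW_P hf) hns) (TW.sub_seq hC (hC.TW_P hf) hns)
  -- the exponential
  have E1 : Tendsto (fun n => ((ns n : ℝ) + 1) * (Real.exp (2 * K * r n) - 1)) atTop
      (𝓝 (2 * K)) := by
    have hd : HasDerivAt (fun s : ℝ => Real.exp (2 * K * s)) (2 * K) 0 := by
      have h1 := ((hasDerivAt_id (0 : ℝ)).const_mul (2 * K)).exp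
      simpa using h1
    rw [hasDerivAt_iff_tendsto_slope] at hd
    have hr' : Tendsto r atTop (𝓝[≠] 0) := by
      rw [tendsto_nhdsWithin_iff]
      exact ⟨hr0, Eventually.of_forall fun n => (hrpos n).ne'⟩
    refine (hd.comp hr').congr fun n => ?_
    simp only [Function.comp, slope_def_field, mul_zero, Real.exp_zero, sub_zero]
    rw [div_eq_mul_inv, mul_comm]
    simp only [hr, inv_inv]
  -- the dimension term
  have D1 : Tendsto (fun n => I (φ * C.P (r n) h ^ 2)) atTop (𝓝 (I (φ * h ^ 2))) := by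
    have hT : T2 (fun n => C.P (r n) h) h := hC.TW_T2 (TW.sub_seq hC (hC.TW_P hh) hns)
    have := ((Tb.const hφ).mul hT).mul_lim hT
    simpa [sq, mul_assoc] using this
  have hcr : Tendsto (fun n => c (r n)) atTop (𝓝 a) := hc.comp hr0
  have LHS := (L1'.add (E1.mul F0)).add ((hcr.const_mul 2).mul D1)
  have key := le_of_tendsto_of_tendsto' LHS R1 (fun n => ?_)
  · linarith
  · have hpos : (0 : ℝ) < (ns n : ℝ) + 1 := by positivity
    have h1 := H (r n) (hrpos n)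
    have h2 : I ((((ns n : ℝ) + 1) • (C.P (r n) φ - φ)) * C.Γ f f)
        = ((ns n : ℝ) + 1) * (I (C.P (r n) φ * C.Γ f f) - I (φ * C.Γ f f)) := by
      rw [smul_mul_assoc, I_smul, sub_mul, I_sub
        (mem_mul_top (hC.P_memTop (hrpos n).le hφ2 hφ) (hC.mem1 f hf))
        (mem_mul_top hφ (hC.mem1 f hf))]
    rw [h2]
    have h3 := mul_le_mul_of_nonneg_left h1 hpos.le
    have h4 : ((ns n : ℝ) + 1) * r n = 1 := by
      simp only [hr]
      field_simp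
    have h5 : ((ns n : ℝ) + 1) * (2 * r n * c (r n) * I (φ * C.P (r n) h ^ 2))
        = 2 * c (r n) * I (φ * C.P (r n) h ^ 2) := by
      linear_combination (2 * c (r n) * I (φ * C.P (r n) h ^ 2)) * h4
    nlinarith [h3, h5]

/-- `P_s g_n → P_s g` in `W` -/
theorem TW_P_of {X : ℕ → M →ₘ[m] ℝ} {x : M →ₘ[m] ℝ} (h1 : C.TW X x) (s : ℝ) :
    C.TW (fun n => C.P s (X n)) (C.P s x) := by
  refine ⟨fun n => hC.P_memW s (h1.mem n), hC.P_memW s h1.mem', ?_⟩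
  refine squeeze_zero (fun n => hC.nrm2_nonneg (hC.sub_mem (hC.P_memW s (h1.mem n))
    (hC.P_memW s h1.mem'))) (fun n => ?_) h1.lim
  rw [← hC.P_sub s (hC.memLp _ (h1.mem n)) (hC.memLp _ h1.mem')]
  exact hC.P_nrm2_le s (hC.sub_mem (h1.mem n) h1.mem')

end IsDir

namespace IsGamma

variable (hC : IsGamma C) {K : ℝ}
include hC

/-- the integrated gradient estimate for all Sobolev functions -/
theorem grad_int (h : ∀ f ∈ C.W, f ∈ C.B → ∀ t : ℝ, 0 < t →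
      Real.exp (K * t) • C.Γ (C.P (t / 2) f) (C.P (t / 2) f) ≤ C.P (t / 2) (C.Γ f f))
    {f φ : M →ₘ[m] ℝ} (hf : f ∈ C.W) (h0 : 0 ≤ φ) (h2 : MemLp φ 2 m) (hφ : MemLp φ ∞ m)
    {s : ℝ} (hs : 0 < s) :
    Real.exp (2 * K * s) * I (φ * C.Γ (C.P s f) (C.P s f)) ≤ I (C.P s φ * C.Γ f f) := by
  have hD := hC.toIsDir
  -- bounded Lipschitz functions
  have key : ∀ g : M →ₘ[m] ℝ, g ∈ C.W → MemLp g ∞ m → MemLp (C.Γ g g) ∞ m →
      Real.exp (2 * K * s) * I (φ * C.Γ (C.P s g) (C.P s g)) ≤ I (C.P s φ * C.Γ g g) := by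
    intro g hg hgt hgΓ
    have hgB : g ∈ C.B := (hC.lip_iff g hg).2 ⟨hgt, hgΓ⟩
    have hΓ2 : MemLp (C.Γ g g) 2 m := hD.Γ_mem2 hg hgΓ hg
    have h1 := h g hg hgB (2 * s) (by positivity)
    rw [mul_div_cancel_left₀ s two_ne_zero, show K * (2 * s) = 2 * K * s by ring] at h1
    have hPW := hD.P_memW s hg
    rw [hD.P_symm s h2 hΓ2, ← I_smul]
    refine I_mono (mem_smul _ (mem_mul_top hφ (hC.mem1 _ hPW)))
      (mem_mul_22 h2 (hD.P_mem2 s hΓ2)) ?_
    rw [← mul_smul_comm]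
    exact mul_le_mul_of_nonneg_left h1 h0
  -- density
  choose g hg1 hg2 hg3 hg4 using fun n : ℕ => hC.dense_lip f hf (((n : ℝ) + 1)⁻¹) (by positivity)
  have hT : C.TW g f := by
    refine ⟨hg1, hf, squeeze_zero (fun n => hD.nrm2_nonneg (hD.sub_mem (hg1 n) hf))
      (fun n => ?_) tendsto_inv_succ⟩
    rw [hD.nrm2_sub_comm (hg1 n) hf]
    exact (hg4 n).le
  have hTP := hD.TW_P_of hT s
  have l1 := (hD.TW_Γ (Tb.const hφ) hTP hTP).const_mul (Real.exp (2 * K * s))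
  have l2 := hD.TW_Γ (Tb.const (hD.P_memTop hs.le h2 hφ)) hT hT
  exact le_of_tendsto_of_tendsto' l1 l2 fun n => key (g n) (hg1 n) (hg2 n) (hg3 n)

/-- KD2: the gradient estimate for bounded Lipschitz functions implies `BE(K,∞)`. -/
theorem kd2 (h : ∀ f ∈ C.W, f ∈ C.B → ∀ t : ℝ, 0 < t →
      Real.exp (K * t) • C.Γ (C.P (t / 2) f) (C.P (t / 2) f) ≤ C.P (t / 2) (C.Γ f f)) :
    C.BEi K := by
  intro f k φ ψ hfk hk hφψ h0 hφ hψ
  have hD := hC.toIsDir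
  have h1 := hD.deriv_at_zero (a := 0) (K := K) (c := fun _ => 0) hfk hk hφψ hφ hψ
    tendsto_const_nhds (fun s hs => by
      have := hC.grad_int h hfk.1 h0 (hC.memLp _ hφψ.1) hφ hs
      simpa using this)
  rw [zero_smul, add_zero] at h1
  exact h1

end IsGamma

end Vale.Agent.P233
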