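import Vale.Agent.P233.H886.Plan

/-! P233 RCDA, block T1: the support of an optimal plan is cyclically monotone. -/

set_option linter.all false

open MeasureTheory Filter Topology Set
open scoped ENNReal NNReal BoundedContinuousFunction

universe u

namespace Vale.Agent.P233.H886

variable {X : Type u} [MetricSpace X] [MeasurableSpace X] [BorelSpace X]
variable {c : X → X → ℝ} {δ L : ℝ}
variable [SecondCountableTopology X]

theorem integral_le_of_ball {β : Measure (X × X)} [IsProbabilityMeasure β] {f : X × X → ℝ}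
    (hf : Integrable f β) {A : ℝ} (h : ∀ᵐ z ∂β, f z ≤ A) : ∫ z, f z ∂β ≤ A := by
  have := integral_mono_ae hf (integrable_const A) h
  simpa using this

theorem le_integral_of_ball {β : Measure (X × X)} [IsProbabilityMeasure β] {f : X × X → ℝ}
    (hf : Integrable f β) {A : ℝ} (h : ∀ᵐ z ∂β, A ≤ f z) : A ≤ ∫ z, f z ∂β := by
  have := integral_mono_ae (integrable_const A) hf h
  simpa using this

/-- cyclical monotonicity -/
theorem cyc_mono (hc : Cost c δ L) {μ ν : Measure X} [IsProbabilityMeasure μ]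
    {γ : Measure (X × X)} (hγ : IsPlan μ ν γ)
    (hopt : ∀ γ' : Measure (X × X), IsPlan μ ν γ' → ∫ z, c z.1 z.2 ∂γ ≤ ∫ z, c z.1 z.2 ∂γ')
    {n : ℕ} (p : Fin n → X × X) (hp : ∀ i, p i ∈ γ.support) (σ : Equiv.Perm (Fin n)) :
    ∑ i, c (p i).1 (p i).2 ≤ ∑ i, c (p (σ i)).1 (p i).2 := by
  haveI := hγ.isProb
  by_contra hlt
  push Not at hlt
  have hn : 0 < n := by
    rcases Nat.eq_zero_or_pos n with h | h
    · subst h; simp at hlt
    · exact h
  have hn' : (0 : ℝ) < n := by exact_mod_cast hn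
  -- gap
  set g : ℝ := ∑ i, c (p i).1 (p i).2 - ∑ i, c (p (σ i)).1 (p i).2 with hg
  have hgpos : 0 < g := by rw [hg]; linarith
  -- radius
  set L' : ℝ := |L| + 1 with hL'
  have hL'pos : 0 < L' := by positivity
  have hLL' : L ≤ L' := by rw [hL']; linarith [le_abs_self L]
  set r : ℝ := g / (8 * n * L') with hr
  have hrpos : 0 < r := by rw [hr]; positivity
  have hclose : ∀ x x' y y' : X, dist x x' < r → dist y y' < r →
      |c x y - c x' y'| ≤ g / (4 * n) := by
    intro x x' y y' hx hy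
    have e : c x y - c x' y' = (c x y - c x' y) + (c x' y - c x' y') := by ring
    have h1 := hc.lip1 x x' y
    have h2 := hc.lip2 x' y y'
    have h3 : L * dist x x' ≤ L' * r :=
      (mul_le_mul_of_nonneg_right hLL' dist_nonneg).trans
        (mul_le_mul_of_nonneg_left hx.le hL'pos.le)
    have h4 : L * dist y y' ≤ L' * r :=
      (mul_le_mul_of_nonneg_right hLL' dist_nonneg).trans
        (mul_le_mul_of_nonneg_left hy.le hL'pos.le)
    have h5 : L' * r = g / (8 * n) := by
      rw [hr]; field_simp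
    have h6 : g / (8 * n) + g / (8 * n) = g / (4 * n) := by field_simp; norm_num
    rw [e]
    calc _ ≤ |c x y - c x' y| + |c x' y - c x' y'| := abs_add_le _ _
      _ ≤ _ := by linarith
  let A : Fin n → Set (X × X) := fun i => Metric.ball (p i) r
  have hAm : ∀ i, MeasurableSet (A i) := fun i => Metric.isOpen_ball.measurableSet
  have hApos : ∀ i, γ (A i) ≠ 0 := by
    intro i
    have := (Measure.mem_support_iff_forall (μ := γ) (p i)).1 (hp i) (A i)
      (Metric.ball_mem_nhds _ hrpos)
    exact this.ne'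
  have hAfin : ∀ i, γ (A i) ≠ ∞ := fun i => measure_ne_top _ _
  let γi : Fin n → Measure (X × X) := fun i => (γ (A i))⁻¹ • γ.restrict (A i)
  haveI hγi : ∀ i, IsProbabilityMeasure (γi i) := by
    intro i
    constructor
    show ((γ (A i))⁻¹ • γ.restrict (A i)) univ = 1
    rw [Measure.smul_apply, Measure.restrict_apply_univ, smul_eq_mul,
      ENNReal.inv_mul_cancel (hApos i) (hAfin i)]
  let m1 : Fin n → Measure X := fun i => (γi i).map Prod.fst
  let m2 : Fin n → Measure X := fun i => (γi i).map Prod.snd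
  haveI hm1 : ∀ i, IsProbabilityMeasure (m1 i) := fun i =>
    Measure.isProbabilityMeasure_map measurable_fst.aemeasurable
  haveI hm2 : ∀ i, IsProbabilityMeasure (m2 i) := fun i =>
    Measure.isProbabilityMeasure_map measurable_snd.aemeasurable
  -- the small weight
  have hne : (Finset.univ : Finset (Fin n)).Nonempty := ⟨⟨0, hn⟩, Finset.mem_univ _⟩
  obtain ⟨i0, -, hi0⟩ := Finset.exists_min_image Finset.univ (fun i => γ (A i)) hne
  set t : ℝ≥0∞ := γ (A i0) / n with ht
  have ht0 : t ≠ 0 := by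
    rw [ht]; exact (ENNReal.div_pos (hApos i0) (ENNReal.natCast_ne_top n)).ne'
  have htop : t ≠ ∞ := by
    rw [ht]
    exact ENNReal.div_ne_top (hAfin i0) (by exact_mod_cast hn.ne')
  let β : Measure (X × X) := ∑ i, t • γi i
  have hβle : β ≤ γ := by
    have h1 : ∀ i, t • γi i ≤ (n : ℝ≥0∞)⁻¹ • γ := by
      intro i
      show t • ((γ (A i))⁻¹ • γ.restrict (A i)) ≤ (n : ℝ≥0∞)⁻¹ • γ
      rw [smul_smul]
      have h2 : t * (γ (A i))⁻¹ ≤ (n : ℝ≥0∞)⁻¹ := by
        rw [ht, div_eq_mul_inv]
        calc γ (A i0) * (n : ℝ≥0∞)⁻¹ * (γ (A i))⁻¹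
            ≤ γ (A i) * (n : ℝ≥0∞)⁻¹ * (γ (A i))⁻¹ := by
              exact mul_le_mul' (mul_le_mul' (hi0 i (Finset.mem_univ _)) le_rfl) le_rfl
          _ = (n : ℝ≥0∞)⁻¹ * (γ (A i) * (γ (A i))⁻¹) := by ring
          _ = (n : ℝ≥0∞)⁻¹ := by rw [ENNReal.mul_inv_cancel (hApos i) (hAfin i), mul_one]
      calc (t * (γ (A i))⁻¹) • γ.restrict (A i) ≤ (n : ℝ≥0∞)⁻¹ • γ.restrict (A i) := by
            intro s
            rw [Measure.smul_apply, Measure.smul_apply, smul_eq_mul, smul_eq_mul]
            gcongr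
        _ ≤ (n : ℝ≥0∞)⁻¹ • γ := by
            intro s
            rw [Measure.smul_apply, Measure.smul_apply, smul_eq_mul, smul_eq_mul]
            gcongr
            exact Measure.restrict_le_self
    calc β ≤ ∑ i : Fin n, (n : ℝ≥0∞)⁻¹ • γ := Finset.sum_le_sum fun i _ => h1 i
      _ = γ := by
        rw [Finset.sum_const, Finset.card_univ, Fintype.card_fin, ← Nat.cast_smul_eq_nsmul ℝ≥0∞,
          smul_smul, ENNReal.mul_inv_cancel (by exact_mod_cast hn.ne') (ENNReal.natCast_ne_top n),
          one_smul]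
  haveI hβfin : IsFiniteMeasure β := isFiniteMeasure_of_le γ hβle
  let κ : Measure (X × X) := γ - β
  have hκ : κ + β = γ := Measure.sub_add_cancel_of_le hβle
  haveI hκfin : IsFiniteMeasure κ := isFiniteMeasure_of_le γ (by rw [← hκ]; exact Measure.le_add_right le_rfl)
  let β' : Measure (X × X) := ∑ i, t • (m1 (σ i)).prod (m2 i)
  let γ' : Measure (X × X) := κ + β'
  have hmap : ∀ (f : X × X → X), Measurable f → ∀ (s : Fin n → Measure (X × X)),
      (∑ i, t • s i).map f = ∑ i, t • (s i).map f := by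
    intro f hf s
    rw [← Measure.mapₗ_apply_of_measurable hf, map_sum]
    refine Finset.sum_congr rfl fun i _ => ?_
    rw [Measure.mapₗ_apply_of_measurable hf, Measure.map_smul]
  have hfst : ∀ i, ((m1 (σ i)).prod (m2 i)).map Prod.fst = m1 (σ i) := by
    intro i
    have := Measure.map_fst_prod (μ := m1 (σ i)) (ν := m2 i)
    simpa using this
  have hsnd : ∀ i, ((m1 (σ i)).prod (m2 i)).map Prod.snd = m2 i := by
    intro i
    have := Measure.map_snd_prod (μ := m1 (σ i)) (ν := m2 i)
    simpa using this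
  have hplan : IsPlan μ ν γ' := by
    constructor
    · show (κ + β').map Prod.fst = μ
      rw [Measure.map_add _ _ measurable_fst, hmap _ measurable_fst]
      have h1 : ∑ i, t • ((m1 (σ i)).prod (m2 i)).map Prod.fst = ∑ i, t • (γi i).map Prod.fst := by
        simp only [hfst]
        exact Equiv.sum_comp σ (fun i => t • m1 i)
      rw [h1, ← hmap _ measurable_fst, ← Measure.map_add _ _ measurable_fst]
      show (κ + β).map Prod.fst = μ
      rw [hκ, hγ.fst]
    · show (κ + β').map Prod.snd = ν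
      rw [Measure.map_add _ _ measurable_snd, hmap _ measurable_snd]
      have h1 : ∑ i, t • ((m1 (σ i)).prod (m2 i)).map Prod.snd = ∑ i, t • (γi i).map Prod.snd := by
        simp only [hsnd]
        rfl
      rw [h1, ← hmap _ measurable_snd, ← Measure.map_add _ _ measurable_snd]
      show (κ + β).map Prod.snd = ν
      rw [hκ, hγ.snd]
  haveI := hplan.isProb
  haveI hβ'fin : IsFiniteMeasure β' :=
    isFiniteMeasure_of_le γ' (by exact Measure.le_add_left le_rfl)
  have hcost := hopt γ' hplan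
  have hint : ∀ (s : Fin n → Measure (X × X)) [∀ i, IsProbabilityMeasure (s i)],
      ∫ z, c z.1 z.2 ∂(∑ i, t • s i) = t.toReal * ∑ i, ∫ z, c z.1 z.2 ∂(s i) := by
    intro s hs
    rw [integral_finset_sum_measure]
    · rw [Finset.mul_sum]
      refine Finset.sum_congr rfl fun i _ => ?_
      rw [integral_smul_measure, smul_eq_mul]
    · intro i _
      exact (hc.integrable (s i)).smul_measure htop
  have e1 : ∫ z, c z.1 z.2 ∂γ = ∫ z, c z.1 z.2 ∂κ + t.toReal * ∑ i, ∫ z, c z.1 z.2 ∂(γi i) := by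
    conv_lhs => rw [← hκ]
    rw [integral_add_measure (hc.integrable κ) (hc.integrable β)]
    rw [← hint γi]
  have e2 : ∫ z, c z.1 z.2 ∂γ' = ∫ z, c z.1 z.2 ∂κ +
      t.toReal * ∑ i, ∫ z, c z.1 z.2 ∂((m1 (σ i)).prod (m2 i)) := by
    show ∫ z, c z.1 z.2 ∂(κ + β') = _
    rw [integral_add_measure (hc.integrable κ) (hc.integrable β')]
    rw [← hint fun i => (m1 (σ i)).prod (m2 i)]
  rw [e1, e2] at hcost
  have htpos : 0 < t.toReal := ENNReal.toReal_pos ht0 htop
  have h3 : ∑ i, ∫ z, c z.1 z.2 ∂(γi i) ≤ ∑ i, ∫ z, c z.1 z.2 ∂((m1 (σ i)).prod (m2 i)) := by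
    by_contra h
    push Not at h
    have := mul_lt_mul_of_pos_left h htpos
    linarith
  -- local estimates
  have hA1 : ∀ i, ∀ᵐ z ∂(γi i), z ∈ A i := by
    intro i
    show ∀ᵐ z ∂((γ (A i))⁻¹ • γ.restrict (A i)), z ∈ A i
    exact Measure.ae_smul_measure (ae_restrict_mem (hAm i)) _
  have hb1 : ∀ i, c (p i).1 (p i).2 - g / (4 * n) ≤ ∫ z, c z.1 z.2 ∂(γi i) := by
    intro i
    apply le_integral_of_ball (hc.integrable _)
    filter_upwards [hA1 i] with z hz
    have hz' : dist z (p i) < r := hz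
    rw [Prod.dist_eq, max_lt_iff] at hz'
    have := abs_le.1 (hclose _ _ _ _ hz'.1 hz'.2)
    linarith [this.1]
  have hA2 : ∀ i, ∀ᵐ x ∂(m1 i), dist x (p i).1 < r := by
    intro i
    have hms : MeasurableSet {x : X | dist x (p i).1 < r} :=
      (isOpen_lt (by fun_prop) continuous_const).measurableSet
    rw [ae_map_iff measurable_fst.aemeasurable hms]
    filter_upwards [hA1 i] with z hz
    have hz' : dist z (p i) < r := hz
    rw [Prod.dist_eq, max_lt_iff] at hz'
    exact hz'.1
  have hA3 : ∀ i, ∀ᵐ x ∂(m2 i), dist x (p i).2 < r := by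
    intro i
    have hms : MeasurableSet {x : X | dist x (p i).2 < r} :=
      (isOpen_lt (by fun_prop) continuous_const).measurableSet
    rw [ae_map_iff measurable_snd.aemeasurable hms]
    filter_upwards [hA1 i] with z hz
    have hz' : dist z (p i) < r := hz
    rw [Prod.dist_eq, max_lt_iff] at hz'
    exact hz'.2
  have hb2 : ∀ i, ∫ z, c z.1 z.2 ∂((m1 (σ i)).prod (m2 i)) ≤
      c (p (σ i)).1 (p i).2 + g / (4 * n) := by
    intro i
    apply integral_le_of_ball (hc.integrable _)
    have h1 : ∀ᵐ z ∂((m1 (σ i)).prod (m2 i)), dist z.1 (p (σ i)).1 < r := by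
      have := ae_of_ae_map (μ := (m1 (σ i)).prod (m2 i)) (f := Prod.fst)
        measurable_fst.aemeasurable (p := fun x => dist x (p (σ i)).1 < r) (by
          rw [hfst i]; exact hA2 (σ i))
      exact this
    have h2 : ∀ᵐ z ∂((m1 (σ i)).prod (m2 i)), dist z.2 (p i).2 < r := by
      have := ae_of_ae_map (μ := (m1 (σ i)).prod (m2 i)) (f := Prod.snd)
        measurable_snd.aemeasurable (p := fun x => dist x (p i).2 < r) (by
          rw [hsnd i]; exact hA3 i)
      exact this
    filter_upwards [h1, h2] with z hz1 hz2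
    have := abs_le.1 (hclose _ _ _ _ hz1 hz2)
    linarith [this.2]
  have s1 : ∑ i, (c (p i).1 (p i).2 - g / (4 * n)) ≤
      ∑ i, (c (p (σ i)).1 (p i).2 + g / (4 * n)) :=
    (Finset.sum_le_sum fun i _ => hb1 i).trans (h3.trans (Finset.sum_le_sum fun i _ => hb2 i))
  rw [Finset.sum_sub_distrib, Finset.sum_add_distrib, Finset.sum_const, Finset.card_univ,
    Fintype.card_fin, nsmul_eq_mul] at s1
  have s2 : (n : ℝ) * (g / (4 * n)) = g / 4 := by field_simp
  rw [s2] at s1
  linarith

end Vale.Agent.P233.H886
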