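import Vale.Agent.P233.H886.KD2

/-! P233, RCDA, part K: `BE(K,N)` from the gradient estimate with the dimension term. -/

set_option linter.all false

open MeasureTheory Filter Topology
open scoped ENNReal NNReal

namespace Vale.Agent.P233

variable {M : Type*} [MeasurableSpace M] {m : Measure M} {C : Calc m}

namespace IsDir

variable (hC : IsDir C) {l K a : ℝ} {f g h φ ψ : M →ₘ[m] ℝ}
include hC

theorem isLap_sub' {f' h' : M →ₘ[m] ℝ} (h1 : C.IsLap f h) (h2 : C.IsLap f' h') :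
    C.IsLap (f - f') (h - h') := by
  have := hC.isLap_add h1 (hC.isLap_smul (-1) h2)
  simpa [sub_eq_add_neg] using this

/-- the Bochner inequality passes to limits in `W` -/
theorem be_closed {X Y : ℕ → M →ₘ[m] ℝ} (h1 : C.TW X f) (h2 : C.TW Y h) (hφ : MemLp φ ∞ m)
    (hψ : MemLp ψ ∞ m)
    (H : ∀ n, I (φ * (C.Γ (X n) (Y n) + K • C.Γ (X n) (X n) + a • Y n ^ 2))
      ≤ I ((2 : ℝ)⁻¹ • (C.Γ (X n) (X n) * ψ))) :
    I (φ * (C.Γ f h + K • C.Γ f f + a • h ^ 2)) ≤ I ((2 : ℝ)⁻¹ • (C.Γ f f * ψ)) := by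
  rw [hC.be_expand h1.mem' h2.mem' hφ, I_smul, mul_comm (C.Γ f f) ψ]
  have H' : ∀ n, I (φ * C.Γ (X n) (Y n)) + K * I (φ * C.Γ (X n) (X n)) + a * I (φ * Y n ^ 2)
      ≤ (2 : ℝ)⁻¹ * I (ψ * C.Γ (X n) (X n)) := by
    intro n
    have := H n
    rwa [hC.be_expand (h1.mem n) (h2.mem n) hφ, I_smul, mul_comm (C.Γ (X n) (X n)) ψ] at this
  have l1 := hC.TW_Γ (Tb.const hφ) h1 h2
  have l2 := hC.TW_Γ (Tb.const hφ) h1 h1
  have l3 : Tendsto (fun n => I (φ * Y n ^ 2)) atTop (𝓝 (I (φ * h ^ 2))) := by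
    have hT : T2 Y h := hC.TW_T2 h2
    have := ((Tb.const hφ).mul hT).mul_lim hT
    simpa [sq, mul_assoc] using this
  have l4 := hC.TW_Γ (Tb.const hψ) h1 h1
  exact le_of_tendsto_of_tendsto' ((l1.add (l2.const_mul K)).add (l3.const_mul a))
    (l4.const_mul (2 : ℝ)⁻¹) H'

/-- `J_l` is a contraction of `W` -/
theorem J_nrm2_le (hl : 0 < l) (hf : f ∈ C.W) : C.nrm2 (C.J l f) ≤ C.nrm2 f := by
  unfold Calc.nrm2
  exact add_le_add (hC.J_sq_le hl (hC.memLp _ hf)) (hC.J_est hl hf).2.1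

theorem TW_J {X : ℕ → M →ₘ[m] ℝ} {x : M →ₘ[m] ℝ} (h1 : C.TW X x) (hl : 0 < l) :
    C.TW (fun n => C.J l (X n)) (C.J l x) := by
  have hm := fun n => hC.memLp _ (h1.mem n)
  have hm' := hC.memLp _ h1.mem'
  refine ⟨fun n => hC.J_mem hl (hm n), hC.J_mem hl hm', ?_⟩
  refine squeeze_zero (fun n => hC.nrm2_nonneg (hC.sub_mem (hC.J_mem hl (hm n))
    (hC.J_mem hl hm'))) (fun n => ?_) h1.lim
  rw [← hC.J_sub hl (hm n) hm']
  exact hC.J_nrm2_le hl (hC.sub_mem (h1.mem n) h1.mem')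

theorem TW_smul {X : ℕ → M →ₘ[m] ℝ} {x : M →ₘ[m] ℝ} (c : ℝ) (h1 : C.TW X x) :
    C.TW (fun n => c • X n) (c • x) := by
  refine ⟨fun n => hC.smul_mem _ _ (h1.mem n), hC.smul_mem _ _ h1.mem', ?_⟩
  have := h1.lim.const_mul (c ^ 2)
  rw [mul_zero] at this
  refine this.congr fun n => ?_
  have hd := hC.sub_mem (h1.mem n) h1.mem'
  rw [← smul_sub]
  unfold Calc.nrm2
  rw [hC.E_smul c hd, mul_add]
  congr 1
  rw [← I_smul]
  congr 1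
  algebra

theorem TW_sub {X Y : ℕ → M →ₘ[m] ℝ} {x y : M →ₘ[m] ℝ} (h1 : C.TW X x) (h2 : C.TW Y y) :
    C.TW (fun n => X n - Y n) (x - y) := by
  have := hC.TW_add h1 (hC.TW_smul (-1) h2)
  simpa [sub_eq_add_neg] using this

/-- the resolvent commutes with the Laplacian -/
theorem J_comm_lap (hl : 0 < l) (hfh : C.IsLap f h) : l⁻¹ • (C.J l f - f) = C.J l h := by
  have hf2 := hC.memLp _ hfh.1
  have hv : C.J l (f - l • h) = f := by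
    refine hC.J_eq hl ⟨hfh.1, fun k hk => ?_⟩
    have hk2 := hC.memLp k hk
    have h1 : I (C.Γ f k) = -I (h * k) := hfh.2.2 k hk
    rw [h1, sub_mul, I_sub (mem_mul_22 hf2 hk2) (mem_mul_22 (mem_smul _ hfh.2.1) hk2),
      smul_mul_assoc, I_smul]
    ring
  rw [hC.J_sub hl hf2 (mem_smul _ hfh.2.1), hC.J_smul hl l hfh.2.1] at hv
  have : C.J l f - f = l • C.J l h := by
    rw [sub_eq_iff_eq_add] at hv
    rw [hv]
    abel
  rw [this, smul_smul, inv_mul_cancel₀ hl.ne', one_smul]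

/-- `J_l J_l f → f` in `W` as `l → 0` -/
theorem TW_JJ (hf : f ∈ C.W) :
    C.TW (fun n : ℕ => C.J ((n : ℝ) + 1)⁻¹ (C.J ((n : ℝ) + 1)⁻¹ f)) f := by
  have hl : ∀ n : ℕ, (0 : ℝ) < ((n : ℝ) + 1)⁻¹ := fun n => by positivity
  have hf2 := hC.memLp _ hf
  have hJ := fun n => hC.J_mem (hl n) hf2
  have hJJ := fun n => hC.J_mem (hl n) (hC.memLp _ (hJ n))
  refine ⟨hJJ, hf, ?_⟩
  have h1 := (hC.J_tendsto_W hf).const_mul 4
  rw [mul_zero] at h1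
  refine squeeze_zero (fun n => hC.nrm2_nonneg (hC.sub_mem (hJJ n) hf)) (fun n => ?_) h1
  have h2 := hC.nrm2_add_le (hC.sub_mem (hJJ n) (hJ n)) (hC.sub_mem (hJ n) hf)
  have h3 := hC.J_nrm2_le (hl n) (hC.sub_mem (hJ n) hf)
  rw [hC.J_sub (hl n) (hC.memLp _ (hJ n)) hf2] at h3
  have e : C.J ((n : ℝ) + 1)⁻¹ (C.J ((n : ℝ) + 1)⁻¹ f) - C.J ((n : ℝ) + 1)⁻¹ f
      + (C.J ((n : ℝ) + 1)⁻¹ f - f) = C.J ((n : ℝ) + 1)⁻¹ (C.J ((n : ℝ) + 1)⁻¹ f) - f := by ring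
  rw [e] at h2
  linarith

theorem J_memTop (hl : 0 < l) (hf : MemLp f 2 m) (hf' : MemLp f ∞ m) : MemLp (C.J l f) ∞ m := by
  obtain ⟨B, hB⟩ := mem_top_iff.1 hf'
  exact mem_top_iff.2 ⟨B, hC.J_bdd hl hf hB⟩

end IsDir

namespace IsGamma

variable (hC : IsGamma C) {K N : ℝ}
include hC

/-- KD3: the gradient estimate with the dimension term implies `BE(K,N)`. -/
theorem kd3 [SigmaFinite m] (hB : C.BEi K) (hN : 0 < N)
    (H : ∀ f h h' : M →ₘ[m] ℝ, C.IsLap f h → C.IsLap h h' → MemLp f ∞ m → MemLp h ∞ m →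
      MemLp h' ∞ m → ∀ t : ℝ, 0 < t →
      Real.exp (K * t) • C.Γ (C.P (t / 2) f) (C.P (t / 2) f)
        + (t / (N * Real.exp (max (-K) 0 * t))) • (C.P (t / 2) h) ^ 2
        ≤ C.P (t / 2) (C.Γ f f)) : C.BE K N := by
  intro f h φ ψ hfh hh hφψ h0 hφ hψ
  have hD := hC.toIsDir
  have hφ2 := hC.memLp _ hφψ.1
  show I (φ * (C.Γ f h + K • C.Γ f f + N⁻¹ • h ^ 2)) ≤ I ((2 : ℝ)⁻¹ • (C.Γ f f * ψ))
  -- Step 1: `f = J_l J_l g` with `g` bounded and Lipschitz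
  have step1 : ∀ l : ℝ, 0 < l → 0 < 1 + 2 * l * K → ∀ g ∈ C.W, MemLp g ∞ m →
      MemLp (C.Γ g g) ∞ m → I (φ * (C.Γ (C.J l (C.J l g)) (l⁻¹ • (C.J l (C.J l g) - C.J l g))
        + K • C.Γ (C.J l (C.J l g)) (C.J l (C.J l g))
        + N⁻¹ • (l⁻¹ • (C.J l (C.J l g) - C.J l g)) ^ 2))
      ≤ I ((2 : ℝ)⁻¹ • (C.Γ (C.J l (C.J l g)) (C.J l (C.J l g)) * ψ)) := by
    intro l hl hl2 g hg hgt hgΓ
    have hg2 := hC.memLp _ hg
    have t1 : C.J l g ∈ C.Test := hC.J_test hB hl hl2 ⟨hg, hgt⟩ hgΓ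
    have t1A := hC.test_A t1
    have t2 : C.J l (C.J l g) ∈ C.Test := hC.J_test hB hl hl2 t1A (hC.test_Γ_top t1)
    have t2A := hC.test_A t2
    have hJ2 := hC.memLp _ t1A.1
    have L1 := hD.J_isLap hl hJ2
    have L2 := hD.isLap_smul l⁻¹ (hD.isLap_sub' (hD.J_isLap hl hJ2) (hD.J_isLap hl hg2))
    have hW := L2.1
    have hΓ2 : MemLp (C.Γ (C.J l (C.J l g)) (C.J l (C.J l g))) 2 m :=
      hD.Γ_mem2 t2A.1 (hC.test_Γ_top t2) t2A.1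
    refine hD.deriv_at_zero (c := fun s => (N * Real.exp (max (-K) 0 * (2 * s)))⁻¹) L1 hW hφψ hφ hψ
      ?_ ?_
    · have hc : Continuous fun s : ℝ => (N * Real.exp (max (-K) 0 * (2 * s)))⁻¹ :=
        Continuous.inv₀ (by fun_prop) fun s => (mul_pos hN (Real.exp_pos _)).ne'
      have := hc.tendsto 0
      simpa using this
    · intro s hs
      have h1 := H _ _ _ L1 L2 t2A.2 (mem_smul _ (mem_sub t2A.2 t1A.2))
        (mem_smul _ (mem_sub (mem_smul _ (mem_sub t2A.2 t1A.2)) (mem_smul _ (mem_sub t1A.2 hgt))))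
        (2 * s) (by positivity)
      rw [mul_div_cancel_left₀ s two_ne_zero, show K * (2 * s) = 2 * K * s by ring] at h1
      set F := C.J l (C.J l g)
      set G := l⁻¹ • (F - C.J l g)
      have hPF := hD.P_memW s t2A.1
      have hPG := hC.memLp _ (hD.P_memW s hW)
      rw [div_eq_mul_inv] at h1
      rw [hD.P_symm s hφ2 hΓ2]
      have e : Real.exp (2 * K * s) * I (φ * C.Γ (C.P s F) (C.P s F))
          + 2 * s * (N * Real.exp (max (-K) 0 * (2 * s)))⁻¹ * I (φ * C.P s G ^ 2)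
          = I (φ * (Real.exp (2 * K * s) • C.Γ (C.P s F) (C.P s F)
            + (2 * s * (N * Real.exp (max (-K) 0 * (2 * s)))⁻¹) • C.P s G ^ 2)) := by
        rw [mul_add, mul_smul_comm, mul_smul_comm,
          I_add (mem_smul _ (mem_mul_top hφ (hC.mem1 _ hPF)))
            (mem_smul _ (mem_mul_top hφ (mem_sq hPG))), I_smul, I_smul]
      rw [e]
      refine I_mono (mem_mul_top hφ (mem_add (mem_smul _ (hC.mem1 _ hPF))
        (mem_smul _ (mem_sq hPG)))) (mem_mul_22 hφ2 (hD.P_mem2 s hΓ2)) ?_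
      exact mul_le_mul_of_nonneg_left h1 h0
  -- Step 2: `f = J_l J_l g` with `g ∈ W`
  have step2 : ∀ l : ℝ, 0 < l → 0 < 1 + 2 * l * K → ∀ g ∈ C.W,
      I (φ * (C.Γ (C.J l (C.J l g)) (l⁻¹ • (C.J l (C.J l g) - C.J l g))
        + K • C.Γ (C.J l (C.J l g)) (C.J l (C.J l g))
        + N⁻¹ • (l⁻¹ • (C.J l (C.J l g) - C.J l g)) ^ 2))
      ≤ I ((2 : ℝ)⁻¹ • (C.Γ (C.J l (C.J l g)) (C.J l (C.J l g)) * ψ)) := by
    intro l hl hl2 g hg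
    choose u hu1 hu2 hu3 hu4 using fun n : ℕ => hC.dense_lip g hg (((n : ℝ) + 1)⁻¹) (by positivity)
    have hT : C.TW u g := by
      refine ⟨hu1, hg, squeeze_zero (fun n => hD.nrm2_nonneg (hD.sub_mem (hu1 n) hg))
        (fun n => ?_) tendsto_inv_succ⟩
      rw [hD.nrm2_sub_comm (hu1 n) hg]
      exact (hu4 n).le
    have hT1 := hD.TW_J hT hl
    have hT2 := hD.TW_J hT1 hl
    have hT3 := hD.TW_smul l⁻¹ (hD.TW_sub hT2 hT1)
    exact hD.be_closed hT2 hT3 hφ hψ fun n => step1 l hl hl2 (u n) (hu1 n) (hu2 n) (hu3 n)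
  -- Step 3: `l → 0`
  obtain ⟨n₀, hn₀⟩ := exists_small K
  have hT1 := hD.TW_JJ hfh.1
  have hT2 := hD.TW_JJ hh
  have hT1' : C.TW (fun n : ℕ => C.J (((n + n₀ : ℕ) : ℝ) + 1)⁻¹ (C.J (((n + n₀ : ℕ) : ℝ) + 1)⁻¹ f)) f :=
    ⟨fun n => hT1.mem _, hT1.mem', hT1.lim.comp (tendsto_add_atTop_nat n₀)⟩
  have hT2' : C.TW (fun n : ℕ => C.J (((n + n₀ : ℕ) : ℝ) + 1)⁻¹ (C.J (((n + n₀ : ℕ) : ℝ) + 1)⁻¹ h)) h :=
    ⟨fun n => hT2.mem _, hT2.mem', hT2.lim.comp (tendsto_add_atTop_nat n₀)⟩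
  refine hD.be_closed hT1' hT2' hφ hψ fun n => ?_
  have hl : (0 : ℝ) < (((n + n₀ : ℕ) : ℝ) + 1)⁻¹ := by positivity
  have h1 := step2 _ hl (hn₀ (n + n₀) (Nat.le_add_left _ _)) f hfh.1
  have e1 := hD.J_comm_lap hl hfh
  have e2 : (((n + n₀ : ℕ) : ℝ) + 1)⁻¹⁻¹ • (C.J (((n + n₀ : ℕ) : ℝ) + 1)⁻¹
      (C.J (((n + n₀ : ℕ) : ℝ) + 1)⁻¹ f) - C.J (((n + n₀ : ℕ) : ℝ) + 1)⁻¹ f)
      = C.J (((n + n₀ : ℕ) : ℝ) + 1)⁻¹ (C.J (((n + n₀ : ℕ) : ℝ) + 1)⁻¹ h) := by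
    have hf2 := hC.memLp _ hfh.1
    have hJ2 := hD.J_mem2 hl hf2
    rw [← e1, hD.J_smul hl _ (mem_sub hJ2 hf2), hD.J_sub hl hJ2 hf2]
  rw [e2] at h1
  exact h1

end IsGamma

end Vale.Agent.P233
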