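import Vale.Agent.P233.H886.Cyc

/-! P233 RCDA, block T1: Kantorovich duality for a bounded Lipschitz cost. -/

set_option linter.all false

open MeasureTheory Filter Topology Set
open scoped ENNReal NNReal BoundedContinuousFunction

universe u

namespace Vale.Agent.P233.H886

variable {X : Type u} [MetricSpace X]
variable {c : X → X → ℝ} {δ L : ℝ}

/-! ### c-transforms -/

/-- `φ(x) = inf_y (c(x,y) - ψ(y))` for a function `ψ` with `|ψ| ≤ B`: elementary properties. -/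
theorem ctr_isGLB [Nonempty X] (hc : Cost c δ L) {ψ : X → ℝ} {B : ℝ} (hB : ∀ y, |ψ y| ≤ B) (x : X) :
    IsGLB (range fun y => c x y - ψ y) (⨅ y, (c x y - ψ y)) := by
  apply isGLB_ciInf
  refine ⟨-B, ?_⟩
  rintro _ ⟨y, rfl⟩
  have := abs_le.1 (hB y)
  have := hc.nonneg x y
  show -B ≤ c x y - ψ y
  linarith

theorem lip_of_isGLB [Nonempty X] (hc : Cost c δ L) {φ ψ : X → ℝ}
    (h : ∀ x, IsGLB (range fun y => c x y - ψ y) (φ x)) (x x' : X) :
    |φ x - φ x'| ≤ L * dist x x' := by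
  have key : ∀ x x' : X, φ x - L * dist x x' ≤ φ x' := by
    intro x x'
    apply (h x').2
    rintro _ ⟨y, rfl⟩
    have h1 : φ x ≤ c x y - ψ y := (h x).1 ⟨y, rfl⟩
    have h2 := abs_le.1 (hc.lip1 x x' y)
    show φ x - L * dist x x' ≤ c x' y - ψ y
    linarith [h2.2]
  rw [abs_le]
  have h1 := key x x'
  have h2 := key x' x
  rw [dist_comm x' x] at h2
  constructor <;> linarith

theorem lip_of_isGLB' [Nonempty X] (hc : Cost c δ L) {φ ψ : X → ℝ}
    (h : ∀ y, IsGLB (range fun x => c x y - φ x) (ψ y)) (y y' : X) :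
    |ψ y - ψ y'| ≤ L * dist y y' := by
  have key : ∀ y y' : X, ψ y - L * dist y y' ≤ ψ y' := by
    intro y y'
    apply (h y').2
    rintro _ ⟨x, rfl⟩
    have h1 : ψ y ≤ c x y - φ x := (h y).1 ⟨x, rfl⟩
    have h2 := abs_le.1 (hc.lip2 x y y')
    show ψ y - L * dist y y' ≤ c x y' - φ x
    linarith [h2.2]
  rw [abs_le]
  have h1 := key y y'
  have h2 := key y' y
  rw [dist_comm y' y] at h2
  constructor <;> linarith

/-- Conjugate pairs. -/
structure Conj (c : X → X → ℝ) (φ ψ : X → ℝ) : Prop where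
  fst : ∀ x, IsGLB (range fun y => c x y - ψ y) (φ x)
  snd : ∀ y, IsGLB (range fun x => c x y - φ x) (ψ y)

theorem Conj.le {φ ψ : X → ℝ} (h : Conj c φ ψ) (x y : X) : φ x + ψ y ≤ c x y := by
  have : φ x ≤ c x y - ψ y := (h.fst x).1 ⟨y, rfl⟩
  linarith

theorem Conj.shift {φ ψ : X → ℝ} (h : Conj c φ ψ) (s : ℝ) :
    Conj c (fun x => φ x + s) (fun y => ψ y - s) := by
  constructor
  · intro x
    constructor
    · rintro _ ⟨y, rfl⟩
      have := h.le x y
      show φ x + s ≤ c x y - (ψ y - s)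
      linarith
    · intro b hb
      have : b - s ≤ φ x := by
        apply (h.fst x).2
        rintro _ ⟨y, rfl⟩
        have h1 : b ≤ c x y - (ψ y - s) := hb ⟨y, rfl⟩
        show b - s ≤ c x y - ψ y
        linarith
      show b ≤ φ x + s
      linarith
  · intro y
    constructor
    · rintro _ ⟨x, rfl⟩
      have := h.le x y
      show ψ y - s ≤ c x y - (φ x + s)
      linarith
    · intro b hb
      have : b + s ≤ ψ y := by
        apply (h.snd y).2
        rintro _ ⟨x, rfl⟩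
        have h1 : b ≤ c x y - (φ x + s) := hb ⟨x, rfl⟩
        show b + s ≤ c x y - φ x
        linarith
      show b ≤ ψ y - s
      linarith

/-- A conjugate pair can be normalised: `0 ≤ φ ≤ δ`, `-δ ≤ ψ ≤ 0`. -/
theorem Conj.normalise [Nonempty X] (hc : Cost c δ L) {φ ψ : X → ℝ} (h : Conj c φ ψ) :
    ∃ s : ℝ, (∀ x, 0 ≤ φ x + s ∧ φ x + s ≤ δ) ∧ (∀ y, -δ ≤ ψ y - s ∧ ψ y - s ≤ 0) := by
  obtain ⟨x0⟩ := ‹Nonempty X›
  have hb : BddAbove (range ψ) := by
    refine ⟨δ - φ x0, ?_⟩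
    rintro _ ⟨y, rfl⟩
    have h1 := h.le x0 y
    have h2 := hc.le x0 y
    linarith
  have hs : ∀ y, ψ y ≤ ⨆ y, ψ y := fun y => le_ciSup hb y
  have h1 : ∀ x, 0 ≤ φ x + ⨆ y, ψ y := by
    intro x
    have : -(⨆ y, ψ y) ≤ φ x := by
      apply (h.fst x).2
      rintro _ ⟨y, rfl⟩
      have := hs y
      have := hc.nonneg x y
      show -(⨆ y, ψ y) ≤ c x y - ψ y
      linarith
    linarith
  have h2 : ∀ x, φ x + ⨆ y, ψ y ≤ δ := by
    intro x
    by_contra hlt
    push Not at hlt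
    obtain ⟨y, hy⟩ := exists_lt_of_lt_ciSup (show δ - φ x < ⨆ y, ψ y by linarith)
    have := h.le x y
    have := hc.le x y
    linarith
  refine ⟨⨆ y, ψ y, fun x => ⟨h1 x, h2 x⟩, fun y => ⟨?_, by linarith [hs y]⟩⟩
  have : (⨆ y, ψ y) - δ ≤ ψ y := by
    apply (h.snd y).2
    rintro _ ⟨x, rfl⟩
    have := h2 x
    have := hc.nonneg x y
    show (⨆ y, ψ y) - δ ≤ c x y - φ x
    linarith
  linarith

/-- Double transform of a function which is subdifferentiable along a set `S`. -/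
theorem exists_conj [Nonempty X] (hc : Cost c δ L) (φ₀ : X → ℝ) {B : ℝ} (hB : ∀ x, |φ₀ x| ≤ B)
    (S : Set (X × X)) (hS : ∀ p ∈ S, ∀ x, φ₀ x - c x p.2 ≤ φ₀ p.1 - c p.1 p.2) :
    ∃ φ ψ : X → ℝ, Conj c φ ψ ∧ ∀ p ∈ S, φ p.1 + ψ p.2 = c p.1 p.2 := by
  have hδ : 0 ≤ δ := by
    obtain ⟨x0⟩ := ‹Nonempty X›
    exact (hc.nonneg x0 x0).trans (hc.le x0 x0)
  set ψ : X → ℝ := fun y => ⨅ x, (c x y - φ₀ x) with hψ
  have gψ : ∀ y, IsGLB (range fun x => c x y - φ₀ x) (ψ y) := by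
    intro y
    apply isGLB_ciInf
    refine ⟨-B, ?_⟩
    rintro _ ⟨x, rfl⟩
    have := abs_le.1 (hB x)
    have := hc.nonneg x y
    show -B ≤ c x y - φ₀ x
    linarith
  have hψB : ∀ y, |ψ y| ≤ B + δ := by
    intro y
    rw [abs_le]
    constructor
    · apply (gψ y).2
      rintro _ ⟨x, rfl⟩
      have := abs_le.1 (hB x)
      have := hc.nonneg x y
      show -(B + δ) ≤ c x y - φ₀ x
      linarith
    · obtain ⟨x0⟩ := ‹Nonempty X›
      have h1 : ψ y ≤ c x0 y - φ₀ x0 := (gψ y).1 ⟨x0, rfl⟩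
      have := abs_le.1 (hB x0)
      have := hc.le x0 y
      linarith
  set φ : X → ℝ := fun x => ⨅ y, (c x y - ψ y) with hφ
  have gφ : ∀ x, IsGLB (range fun y => c x y - ψ y) (φ x) := fun x => ctr_isGLB hc hψB x
  have hge : ∀ x, φ₀ x ≤ φ x := by
    intro x
    apply (gφ x).2
    rintro _ ⟨y, rfl⟩
    have h1 : ψ y ≤ c x y - φ₀ x := (gψ y).1 ⟨x, rfl⟩
    show φ₀ x ≤ c x y - ψ y
    linarith
  refine ⟨φ, ψ, ⟨gφ, fun y => ⟨?_, ?_⟩⟩, ?_⟩
  · rintro _ ⟨x, rfl⟩
    have h1 : φ x ≤ c x y - ψ y := (gφ x).1 ⟨y, rfl⟩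
    show ψ y ≤ c x y - φ x
    linarith
  · intro b hb
    apply (gψ y).2
    rintro _ ⟨x, rfl⟩
    have h1 : b ≤ c x y - φ x := hb ⟨x, rfl⟩
    have h2 := hge x
    show b ≤ c x y - φ₀ x
    linarith
  · intro p hp
    apply le_antisymm
    · have h1 : φ p.1 ≤ c p.1 p.2 - ψ p.2 := (gφ p.1).1 ⟨p.2, rfl⟩
      linarith
    · have h1 : c p.1 p.2 - φ₀ p.1 ≤ ψ p.2 := by
        apply (gψ p.2).2
        rintro _ ⟨x, rfl⟩
        have := hS p hp x
        show c p.1 p.2 - φ₀ p.1 ≤ c x p.2 - φ₀ x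
        linarith
      have := hge p.1
      linarith

/-! ### Rüschendorf's formula -/

/-- value of a chain `q 0, …, q n` of pairs at the point `x` -/
noncomputable def chain (c : X → X → ℝ) (n : ℕ) (q : ℕ → X × X) (x : X) : ℝ :=
  ∑ i ∈ Finset.range n, (c (q (i + 1)).1 (q i).2 - c (q i).1 (q i).2) +
    (c x (q n).2 - c (q n).1 (q n).2)

theorem chain_lip (hc : Cost c δ L) (n : ℕ) (q : ℕ → X × X) (x x' : X) :
    |chain c n q x - chain c n q x'| ≤ δ := by
  have e : chain c n q x - chain c n q x' = c x (q n).2 - c x' (q n).2 := by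
    simp only [chain]; ring
  rw [e, abs_le]
  have h1 := hc.nonneg x (q n).2
  have h2 := hc.nonneg x' (q n).2
  have h3 := hc.le x (q n).2
  have h4 := hc.le x' (q n).2
  constructor <;> linarith

/-- A cyclically monotone set is contained in the contact set of a conjugate pair. -/
theorem exists_conj_of_cyc (hc : Cost c δ L) (S : Set (X × X)) (hne : S.Nonempty)
    (hcyc : ∀ (n : ℕ) (p : Fin n → X × X), (∀ i, p i ∈ S) → ∀ σ : Equiv.Perm (Fin n),
      ∑ i, c (p i).1 (p i).2 ≤ ∑ i, c (p (σ i)).1 (p i).2) :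
    ∃ φ ψ : X → ℝ, Conj c φ ψ ∧ ∀ p ∈ S, φ p.1 + ψ p.2 = c p.1 p.2 := by
  obtain ⟨p0, hp0⟩ := hne
  haveI : Nonempty X := ⟨p0.1⟩
  have hδ : 0 ≤ δ := (hc.nonneg p0.1 p0.1).trans (hc.le p0.1 p0.1)
  let I := {a : ℕ × (ℕ → X × X) // a.2 0 = p0 ∧ ∀ i, a.2 i ∈ S}
  haveI : Nonempty I := ⟨⟨(0, fun _ => p0), rfl, fun _ => hp0⟩⟩
  -- chains at the base point are nonnegative
  have hbase : ∀ a : I, 0 ≤ chain c a.1.1 a.1.2 p0.1 := by
    rintro ⟨⟨n, q⟩, hq0, hqS⟩
    have h1 := hcyc (n + 1) (fun i => q i) (fun i => hqS _) (finRotate (n + 1))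
    rw [Fin.sum_univ_castSucc, Fin.sum_univ_castSucc] at h1
    simp only [finRotate_last, Fin.val_castSucc, Fin.val_last, Fin.val_zero] at h1
    have e2 : ∀ i : Fin n, ((finRotate (n + 1) i.castSucc : Fin (n + 1)) : ℕ) = i + 1 := by
      intro i
      rw [finRotate_succ_apply, Fin.val_add_one_of_lt (Fin.castSucc_lt_last i)]
      simp
    simp only [e2] at h1
    have hq0' : q 0 = p0 := hq0
    show 0 ≤ chain c n q p0.1
    simp only [chain]
    rw [Finset.sum_sub_distrib, Finset.sum_range, Finset.sum_range]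
    rw [hq0'] at h1
    linarith
  have hbd : ∀ x, BddBelow (range fun a : I => chain c a.1.1 a.1.2 x) := by
    intro x
    refine ⟨-δ, ?_⟩
    rintro _ ⟨a, rfl⟩
    have h1 := abs_le.1 (chain_lip hc a.1.1 a.1.2 x p0.1)
    have h2 := hbase a
    show -δ ≤ chain c a.1.1 a.1.2 x
    linarith
  set φ₀ : X → ℝ := fun x => ⨅ a : I, chain c a.1.1 a.1.2 x with hφ₀
  have hle : ∀ x, ∀ a : I, φ₀ x ≤ chain c a.1.1 a.1.2 x := fun x a => ciInf_le (hbd x) a
  have hge : ∀ x b, (∀ a : I, b ≤ chain c a.1.1 a.1.2 x) → b ≤ φ₀ x := fun x b h => le_ciInf h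
  have hB : ∀ x, |φ₀ x| ≤ δ := by
    intro x
    rw [abs_le]
    constructor
    · apply hge
      intro a
      have h1 := abs_le.1 (chain_lip hc a.1.1 a.1.2 x p0.1)
      have h2 := hbase a
      linarith
    · have h1 := hle x ⟨(0, fun _ => p0), rfl, fun _ => hp0⟩
      have h2 : chain c 0 (fun _ => p0) x = c x p0.2 - c p0.1 p0.2 := by simp [chain]
      have h1' : φ₀ x ≤ chain c 0 (fun _ => p0) x := h1
      rw [h2] at h1'
      have h3 := hc.le x p0.2
      have h4 := hc.nonneg p0.1 p0.2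
      linarith
  refine exists_conj hc φ₀ hB S ?_
  intro p hp x
  -- extend a chain by `p`
  have hext : φ₀ x - (c x p.2 - c p.1 p.2) ≤ φ₀ p.1 := by
    apply hge
    rintro ⟨⟨n, q⟩, hq0, hqS⟩
    show φ₀ x - (c x p.2 - c p.1 p.2) ≤ chain c n q p.1
    let q' : ℕ → X × X := fun i => if i ≤ n then q i else p
    have hq'S : ∀ i, q' i ∈ S := by
      intro i
      by_cases hi : i ≤ n
      · simp only [q', hi, if_true]; exact hqS i
      · simp only [q', hi, if_false]; exact hp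
    have hq'0 : q' 0 = p0 := by
      simp only [q', Nat.zero_le, if_true]; exact hq0
    have h1 : φ₀ x ≤ chain c (n + 1) q' x := hle x ⟨(n + 1, q'), hq'0, hq'S⟩
    have h2 : chain c (n + 1) q' x = chain c n q p.1 + (c x p.2 - c p.1 p.2) := by
      have hqn : q' n = q n := by simp [q']
      have hqn1 : q' (n + 1) = p := by simp [q']
      simp only [chain]
      rw [Finset.sum_range_succ, hqn, hqn1]
      have : ∀ i ∈ Finset.range n, (c (q' (i + 1)).1 (q' i).2 - c (q' i).1 (q' i).2) =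
          (c (q (i + 1)).1 (q i).2 - c (q i).1 (q i).2) := by
        intro i hi
        rw [Finset.mem_range] at hi
        have a1 : q' i = q i := by simp [q', hi.le]
        have a2 : q' (i + 1) = q (i + 1) := by simp [q', Nat.succ_le_of_lt hi]
        rw [a1, a2]
      rw [Finset.sum_congr rfl this]
    linarith
  linarith

end Vale.Agent.P233.H886
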