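import Vale.Agent.P233.H886.Kant

/-! P233 RCDA, blocks T1, T2: the transport cost `Dc`, optimal plans and potentials. -/

set_option linter.all false

open MeasureTheory Filter Topology Set
open scoped ENNReal NNReal BoundedContinuousFunction

universe u

namespace Vale.Agent.P233.H886

variable {X : Type u} [MetricSpace X] [MeasurableSpace X] [BorelSpace X]
variable {c : X → X → ℝ} {δ L : ℝ}

theorem continuous_of_lip {φ : X → ℝ} (h : ∀ x x', |φ x - φ x'| ≤ L * dist x x') :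
    Continuous φ := by
  rw [continuous_iff_continuousAt]
  intro x
  rw [ContinuousAt, tendsto_iff_dist_tendsto_zero]
  have h0 : Tendsto (fun z : X => L * dist z x) (𝓝 x) (𝓝 0) := by
    have : Continuous fun z : X => L * dist z x := by fun_prop
    simpa using this.tendsto x
  refine squeeze_zero (fun _ => dist_nonneg) (fun z => ?_) h0
  rw [Real.dist_eq]
  exact h z x

theorem integrable_of_bd {μ : Measure X} [IsFiniteMeasure μ] {φ : X → ℝ} (h : Measurable φ) {B : ℝ}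
    (hB : ∀ x, |φ x| ≤ B) : Integrable φ μ :=
  Integrable.of_bound (C := B) h.aestronglyMeasurable (Eventually.of_forall fun z => by
    rw [Real.norm_eq_abs]; exact hB z)

variable [SecondCountableTopology X]

/-- the easy half of the duality, for one plan -/
theorem dual_le_plan (hc : Cost c δ L) {μ ν : Measure X} [IsProbabilityMeasure μ]
    [IsProbabilityMeasure ν] {γ : Measure (X × X)} (hγ : IsPlan μ ν γ) {φ ψ : X → ℝ}
    (hφ : Measurable φ) (hψ : Measurable ψ) {B : ℝ} (hBφ : ∀ x, |φ x| ≤ B) (hBψ : ∀ x, |ψ x| ≤ B)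
    (h : ∀ᵐ z ∂γ, φ z.1 + ψ z.2 ≤ c z.1 z.2) :
    ∫ x, φ x ∂μ + ∫ y, ψ y ∂ν ≤ ∫ z, c z.1 z.2 ∂γ := by
  haveI := hγ.isProb
  have e1 : ∫ x, φ x ∂μ = ∫ z, φ z.1 ∂γ := by
    rw [← hγ.fst, integral_map measurable_fst.aemeasurable hφ.aestronglyMeasurable]
  have e2 : ∫ x, ψ x ∂ν = ∫ z, ψ z.2 ∂γ := by
    rw [← hγ.snd, integral_map measurable_snd.aemeasurable hψ.aestronglyMeasurable]
  have i1 : Integrable (fun z : X × X => φ z.1) γ :=
    Integrable.of_bound (C := B) (hφ.comp measurable_fst).aestronglyMeasurable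
      (Eventually.of_forall fun z => by rw [Real.norm_eq_abs]; exact hBφ z.1)
  have i2 : Integrable (fun z : X × X => ψ z.2) γ :=
    Integrable.of_bound (C := B) (hψ.comp measurable_snd).aestronglyMeasurable
      (Eventually.of_forall fun z => by rw [Real.norm_eq_abs]; exact hBψ z.2)
  rw [e1, e2, ← integral_add i1 i2]
  exact integral_mono_ae (i1.add i2) (hc.integrable γ) h

theorem eq_plan {μ ν : Measure X} [IsProbabilityMeasure μ] {γ : Measure (X × X)}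
    (hγ : IsPlan μ ν γ) {φ ψ : X → ℝ} (hφ : Measurable φ) (hψ : Measurable ψ) {B : ℝ}
    (hBφ : ∀ x, |φ x| ≤ B) (hBψ : ∀ x, |ψ x| ≤ B) (h : ∀ᵐ z ∂γ, φ z.1 + ψ z.2 = c z.1 z.2) :
    ∫ x, φ x ∂μ + ∫ y, ψ y ∂ν = ∫ z, c z.1 z.2 ∂γ := by
  haveI := hγ.isProb
  have e1 : ∫ x, φ x ∂μ = ∫ z, φ z.1 ∂γ := by
    rw [← hγ.fst, integral_map measurable_fst.aemeasurable hφ.aestronglyMeasurable]
  have e2 : ∫ x, ψ x ∂ν = ∫ z, ψ z.2 ∂γ := by
    rw [← hγ.snd, integral_map measurable_snd.aemeasurable hψ.aestronglyMeasurable]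
  have i1 : Integrable (fun z : X × X => φ z.1) γ :=
    Integrable.of_bound (C := B) (hφ.comp measurable_fst).aestronglyMeasurable
      (Eventually.of_forall fun z => by rw [Real.norm_eq_abs]; exact hBφ z.1)
  have i2 : Integrable (fun z : X × X => ψ z.2) γ :=
    Integrable.of_bound (C := B) (hψ.comp measurable_snd).aestronglyMeasurable
      (Eventually.of_forall fun z => by rw [Real.norm_eq_abs]; exact hBψ z.2)
  rw [e1, e2, ← integral_add i1 i2]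
  exact integral_congr_ae h

theorem Dc_bddBelow (hc : Cost c δ L) (μ ν : Measure X) :
    BddBelow {r | ∃ γ : Measure (X × X), IsPlan μ ν γ ∧ r = ∫ z, c z.1 z.2 ∂γ} := by
  refine ⟨0, ?_⟩
  rintro _ ⟨γ, -, rfl⟩
  exact integral_nonneg fun z => hc.nonneg _ _

theorem Dc_le (hc : Cost c δ L) {μ ν : Measure X} {γ : Measure (X × X)} (hγ : IsPlan μ ν γ) :
    Dc c μ ν ≤ ∫ z, c z.1 z.2 ∂γ := csInf_le (Dc_bddBelow hc μ ν) ⟨γ, hγ, rfl⟩

theorem Dc_nonneg (hc : Cost c δ L) (μ ν : Measure X) [IsProbabilityMeasure μ]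
    [IsProbabilityMeasure ν] : 0 ≤ Dc c μ ν := by
  refine le_csInf ⟨_, μ.prod ν, isPlan_prod μ ν, rfl⟩ ?_
  rintro _ ⟨γ, -, rfl⟩
  exact integral_nonneg fun z => hc.nonneg _ _

/-- weak duality -/
theorem dual_le (hc : Cost c δ L) {μ ν : Measure X} [IsProbabilityMeasure μ]
    [IsProbabilityMeasure ν] {φ ψ : X → ℝ} (hφ : Measurable φ) (hψ : Measurable ψ) {B : ℝ}
    (hBφ : ∀ x, |φ x| ≤ B) (hBψ : ∀ x, |ψ x| ≤ B) (h : ∀ x y, φ x + ψ y ≤ c x y) :
    ∫ x, φ x ∂μ + ∫ y, ψ y ∂ν ≤ Dc c μ ν := by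
  refine le_csInf ⟨_, μ.prod ν, isPlan_prod μ ν, rfl⟩ ?_
  rintro _ ⟨γ, hγ, rfl⟩
  exact dual_le_plan hc hγ hφ hψ hBφ hBψ (Eventually.of_forall fun z => h _ _)

variable [CompleteSpace X]

/-- **Kantorovich duality** with optimal plan and normalised conjugate Lipschitz potentials. -/
theorem kant (hc : Cost c δ L) (μ ν : Measure X) [IsProbabilityMeasure μ]
    [IsProbabilityMeasure ν] : ∃ (γ : Measure (X × X)) (φ ψ : X → ℝ), IsPlan μ ν γ ∧
      ∫ z, c z.1 z.2 ∂γ = Dc c μ ν ∧ Conj c φ ψ ∧ (∀ x y, φ x + ψ y ≤ c x y) ∧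
      (∀ᵐ z ∂γ, φ z.1 + ψ z.2 = c z.1 z.2) ∧ (∀ x, 0 ≤ φ x ∧ φ x ≤ δ) ∧
      (∀ y, -δ ≤ ψ y ∧ ψ y ≤ 0) ∧ (∀ x x', |φ x - φ x'| ≤ L * dist x x') ∧
      (∀ x x', |ψ x - ψ x'| ≤ L * dist x x') ∧
      Dc c μ ν = ∫ x, φ x ∂μ + ∫ y, ψ y ∂ν := by
  haveI : Nonempty X := by
    by_contra h
    rw [not_nonempty_iff] at h
    have : (univ : Set X) = ∅ := eq_empty_of_isEmpty _
    have h1 := measure_univ (μ := μ)
    rw [this, measure_empty] at h1
    exact zero_ne_one h1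
  obtain ⟨γ, hγ, hopt⟩ := exists_opt hc μ ν
  haveI := hγ.isProb
  have hsupp : γ.support.Nonempty := Measure.nonempty_support (IsProbabilityMeasure.ne_zero γ)
  obtain ⟨φ₀, ψ₀, hconj, heq⟩ := exists_conj_of_cyc hc γ.support hsupp
    (fun n p hp σ => cyc_mono hc hγ hopt p hp σ)
  obtain ⟨s, hs1, hs2⟩ := hconj.normalise hc
  have hconj' := hconj.shift s
  have hφL : ∀ x x', |(φ₀ x + s) - (φ₀ x' + s)| ≤ L * dist x x' :=
    fun x x' => lip_of_isGLB hc hconj'.fst x x'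
  have hψL : ∀ x x', |(ψ₀ x - s) - (ψ₀ x' - s)| ≤ L * dist x x' :=
    fun x x' => lip_of_isGLB' hc hconj'.snd x x'
  have hD : ∫ z, c z.1 z.2 ∂γ = Dc c μ ν := by
    apply le_antisymm
    · refine le_csInf ⟨_, γ, hγ, rfl⟩ ?_
      rintro _ ⟨γ', hγ', rfl⟩
      exact hopt γ' hγ'
    · exact Dc_le hc hγ
  have hae : ∀ᵐ z ∂γ, (φ₀ z.1 + s) + (ψ₀ z.2 - s) = c z.1 z.2 := by
    filter_upwards [Measure.support_mem_ae (μ := γ)] with z hz
    have := heq z hz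
    linarith
  refine ⟨γ, fun x => φ₀ x + s, fun y => ψ₀ y - s, hγ, hD, hconj', hconj'.le, hae, hs1, hs2,
    hφL, hψL, ?_⟩
  have hδ : 0 ≤ δ := (hs1 (Classical.arbitrary X)).1.trans (hs1 (Classical.arbitrary X)).2
  rw [← hD]
  symm
  refine eq_plan hγ (continuous_of_lip hφL).measurable (continuous_of_lip hψL).measurable
    (B := δ) (fun x => ?_) (fun x => ?_) hae
  · rw [abs_le]; exact ⟨by linarith [(hs1 x).1], (hs1 x).2⟩
  · rw [abs_le]; exact ⟨(hs2 x).1, by linarith [(hs2 x).2]⟩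

/-- Stability in the marginals, general form. -/
theorem Dc_stab (hc : Cost c δ L) (μ ν μ' ν' : Measure X) [IsProbabilityMeasure μ]
    [IsProbabilityMeasure ν] [IsProbabilityMeasure μ'] [IsProbabilityMeasure ν'] {a b : ℝ}
    (ha : ∀ φ : X → ℝ, Continuous φ → (∀ x, |φ x| ≤ δ) → ∫ x, φ x ∂μ - ∫ x, φ x ∂μ' ≤ a)
    (hb : ∀ φ : X → ℝ, Continuous φ → (∀ x, |φ x| ≤ δ) → ∫ x, φ x ∂ν - ∫ x, φ x ∂ν' ≤ b) :
    Dc c μ ν ≤ Dc c μ' ν' + a + b := by
  obtain ⟨γ, φ, ψ, hγ, hD, hconj, hle, hae, h1, h2, hφL, hψL, hD'⟩ := kant hc μ ν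
  have e1 : ∀ x, |φ x| ≤ δ := fun x => by
    rw [abs_le]; exact ⟨by linarith [(h1 x).1, (h1 x).2], (h1 x).2⟩
  have e2 : ∀ x, |ψ x| ≤ δ := fun x => by
    rw [abs_le]; exact ⟨(h2 x).1, by linarith [(h2 x).1, (h2 x).2]⟩
  have h3 := ha φ (continuous_of_lip hφL) e1
  have h4 := hb ψ (continuous_of_lip hψL) e2
  have h5 := dual_le hc (μ := μ') (ν := ν') (continuous_of_lip hφL).measurable
    (continuous_of_lip hψL).measurable e1 e2 hle
  rw [hD']
  linarith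

/-- T2, localisation: if `μ`, `ν` live near `x`, `y` then `Dc c μ ν` is close to `c x y`. -/
theorem Dc_local (hc : Cost c δ L) (μ ν : Measure X) [IsProbabilityMeasure μ]
    [IsProbabilityMeasure ν] {x y : X} {r : ℝ} (hr : 0 ≤ r) (hL : 0 ≤ L)
    (hμ : ∀ᵐ z ∂μ, dist z x ≤ r) (hν : ∀ᵐ z ∂ν, dist z y ≤ r) :
    |Dc c μ ν - c x y| ≤ 2 * L * r := by
  obtain ⟨γ, φ, ψ, hγ, hD, -⟩ := kant hc μ ν
  haveI := hγ.isProb
  have h1 : ∀ᵐ z ∂γ, dist z.1 x ≤ r := ae_of_ae_map measurable_fst.aemeasurable (by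
    rw [hγ.fst]; exact hμ)
  have h2 : ∀ᵐ z ∂γ, dist z.2 y ≤ r := ae_of_ae_map measurable_snd.aemeasurable (by
    rw [hγ.snd]; exact hν)
  have h3 : ∀ᵐ z ∂γ, |c z.1 z.2 - c x y| ≤ 2 * L * r := by
    filter_upwards [h1, h2] with z hz1 hz2
    have e : c z.1 z.2 - c x y = (c z.1 z.2 - c x z.2) + (c x z.2 - c x y) := by ring
    rw [e]
    have a1 := mul_le_mul_of_nonneg_left hz1 hL
    have a2 := mul_le_mul_of_nonneg_left hz2 hL
    calc _ ≤ |c z.1 z.2 - c x z.2| + |c x z.2 - c x y| := abs_add_le _ _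
      _ ≤ L * dist z.1 x + L * dist z.2 y := add_le_add (hc.lip1 _ _ _) (hc.lip2 _ _ _)
      _ ≤ _ := by linarith
  rw [← hD, abs_le]
  constructor
  · have : c x y - 2 * L * r ≤ ∫ z, c z.1 z.2 ∂γ := by
      apply le_integral_of_ball (hc.integrable γ)
      filter_upwards [h3] with z hz
      have := abs_le.1 hz
      linarith [this.1]
    linarith
  · have : ∫ z, c z.1 z.2 ∂γ ≤ c x y + 2 * L * r := by
      apply integral_le_of_ball (hc.integrable γ)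
      filter_upwards [h3] with z hz
      have := abs_le.1 hz
      linarith [this.2]
    linarith

/-! ### densities -/

section density

variable {m : Measure X}

theorem integral_withDens {ρ : X → ℝ} (hρ : AEMeasurable ρ m) (h0 : ∀ᵐ x ∂m, 0 ≤ ρ x) (φ : X → ℝ) :
    ∫ x, φ x ∂(m.withDensity fun x => ENNReal.ofReal (ρ x)) = ∫ x, ρ x * φ x ∂m := by
  have h1 : (fun x => ENNReal.ofReal (ρ x)) = fun x => ((Real.toNNReal (ρ x) : ℝ≥0) : ℝ≥0∞) := rfl
  rw [h1, integral_withDensity_eq_integral_smul₀ hρ.real_toNNReal]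
  refine integral_congr_ae ?_
  filter_upwards [h0] with x hx
  rw [NNReal.smul_def, Real.coe_toNNReal _ hx, smul_eq_mul]

theorem integral_sub_le {ρ ρ' : X → ℝ} (hρ : Integrable ρ m) (hρ' : Integrable ρ' m)
    (h0 : ∀ᵐ x ∂m, 0 ≤ ρ x) (h0' : ∀ᵐ x ∂m, 0 ≤ ρ' x) {φ : X → ℝ} (hφ : Continuous φ) {δ : ℝ}
    (hB : ∀ x, |φ x| ≤ δ) :
    ∫ x, φ x ∂(m.withDensity fun x => ENNReal.ofReal (ρ x)) -
      ∫ x, φ x ∂(m.withDensity fun x => ENNReal.ofReal (ρ' x)) ≤ δ * ∫ x, |ρ x - ρ' x| ∂m := by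
  rw [integral_withDens hρ.1.aemeasurable h0, integral_withDens hρ'.1.aemeasurable h0']
  have i1 : Integrable (fun x => ρ x * φ x) m :=
    hρ.mul_bdd (c := δ) hφ.aestronglyMeasurable
      (Eventually.of_forall fun x => by rw [Real.norm_eq_abs]; exact hB x)
  have i2 : Integrable (fun x => ρ' x * φ x) m :=
    hρ'.mul_bdd (c := δ) hφ.aestronglyMeasurable
      (Eventually.of_forall fun x => by rw [Real.norm_eq_abs]; exact hB x)
  rw [← integral_sub i1 i2, ← integral_const_mul]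
  refine integral_mono (i1.sub i2) ((hρ.sub hρ').abs.const_mul δ) fun x => ?_
  show ρ x * φ x - ρ' x * φ x ≤ δ * |ρ x - ρ' x|
  calc ρ x * φ x - ρ' x * φ x = (ρ x - ρ' x) * φ x := by ring
    _ ≤ |(ρ x - ρ' x) * φ x| := le_abs_self _
    _ = |ρ x - ρ' x| * |φ x| := abs_mul _ _
    _ ≤ |ρ x - ρ' x| * δ := mul_le_mul_of_nonneg_left (hB x) (abs_nonneg _)
    _ = δ * |ρ x - ρ' x| := mul_comm _ _

/-- T2: `Dc` is Lipschitz in the densities, in `L¹`. -/
theorem Dc_dens (hc : Cost c δ L) {ρ σ ρ' σ' : X → ℝ} (hρ : Integrable ρ m) (hσ : Integrable σ m)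
    (hρ' : Integrable ρ' m) (hσ' : Integrable σ' m) (h0 : ∀ᵐ x ∂m, 0 ≤ ρ x)
    (h1 : ∀ᵐ x ∂m, 0 ≤ σ x) (h0' : ∀ᵐ x ∂m, 0 ≤ ρ' x) (h1' : ∀ᵐ x ∂m, 0 ≤ σ' x)
    [IsProbabilityMeasure (m.withDensity fun x => ENNReal.ofReal (ρ x))]
    [IsProbabilityMeasure (m.withDensity fun x => ENNReal.ofReal (σ x))]
    [IsProbabilityMeasure (m.withDensity fun x => ENNReal.ofReal (ρ' x))]
    [IsProbabilityMeasure (m.withDensity fun x => ENNReal.ofReal (σ' x))] :
    |Dc c (m.withDensity fun x => ENNReal.ofReal (ρ x)) (m.withDensity fun x => ENNReal.ofReal (σ x)) -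
      Dc c (m.withDensity fun x => ENNReal.ofReal (ρ' x))
        (m.withDensity fun x => ENNReal.ofReal (σ' x))| ≤
      δ * (∫ x, |ρ x - ρ' x| ∂m + ∫ x, |σ x - σ' x| ∂m) := by
  have a1 := Dc_stab hc (m.withDensity fun x => ENNReal.ofReal (ρ x))
    (m.withDensity fun x => ENNReal.ofReal (σ x)) (m.withDensity fun x => ENNReal.ofReal (ρ' x))
    (m.withDensity fun x => ENNReal.ofReal (σ' x))
    (fun φ hφ hB => integral_sub_le hρ hρ' h0 h0' hφ hB)
    (fun φ hφ hB => integral_sub_le hσ hσ' h1 h1' hφ hB)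
  have a2 := Dc_stab hc (m.withDensity fun x => ENNReal.ofReal (ρ' x))
    (m.withDensity fun x => ENNReal.ofReal (σ' x)) (m.withDensity fun x => ENNReal.ofReal (ρ x))
    (m.withDensity fun x => ENNReal.ofReal (σ x))
    (fun φ hφ hB => integral_sub_le hρ' hρ h0' h0 hφ hB)
    (fun φ hφ hB => integral_sub_le hσ' hσ h1' h1 hφ hB)
  have s1 : ∫ x, |ρ' x - ρ x| ∂m = ∫ x, |ρ x - ρ' x| ∂m := by simp only [abs_sub_comm]
  have s2 : ∫ x, |σ' x - σ x| ∂m = ∫ x, |σ x - σ' x| ∂m := by simp only [abs_sub_comm]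
  rw [s1, s2] at a2
  rw [abs_le]
  constructor <;> nlinarith

end density

end Vale.Agent.P233.H886
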