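import Mathlib.MeasureTheory.Measure.Prokhorov
import Mathlib.MeasureTheory.Measure.Tight
import Mathlib.MeasureTheory.Measure.Support
import Mathlib.MeasureTheory.Measure.Sub
import Mathlib.MeasureTheory.Measure.FiniteMeasureProd
import Mathlib.MeasureTheory.Constructions.Polish.Basic
import Mathlib.MeasureTheory.Integral.Bochner.Set
import Mathlib.Logic.Equiv.Fin.Rotate
import Mathlib.Probability.ConditionalProbability

/-! P233 RCDA, block T1 (first half): existence of an optimal plan for a bounded Lipschitz cost, and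
cyclical monotonicity of its support. -/

set_option linter.all false

open MeasureTheory Filter Topology Set
open scoped ENNReal NNReal BoundedContinuousFunction

universe u

namespace Vale.Agent.P233.H886

variable {X : Type u} [MetricSpace X] [MeasurableSpace X] [BorelSpace X]

/-- `γ` is a plan (coupling) of `μ` and `ν`. -/
structure IsPlan (μ ν : Measure X) (γ : Measure (X × X)) : Prop where
  fst : γ.map Prod.fst = μ
  snd : γ.map Prod.snd = ν

/-- bounded Lipschitz cost -/
structure Cost (c : X → X → ℝ) (δ L : ℝ) : Prop where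
  nonneg : ∀ x y, 0 ≤ c x y
  le : ∀ x y, c x y ≤ δ
  lip1 : ∀ x x' y, |c x y - c x' y| ≤ L * dist x x'
  lip2 : ∀ x y y', |c x y - c x y'| ≤ L * dist y y'

/-- the optimal transport cost -/
noncomputable def Dc (c : X → X → ℝ) (μ ν : Measure X) : ℝ :=
  sInf {r | ∃ γ : Measure (X × X), IsPlan μ ν γ ∧ r = ∫ z, c z.1 z.2 ∂γ}

variable {c : X → X → ℝ} {δ L : ℝ}

theorem Cost.L_nonneg' (hc : Cost c δ L) (x x' : X) (h : x ≠ x') : 0 ≤ L := by
  by_contra hL
  push Not at hL
  have h1 := hc.lip1 x x' x
  have h2 := abs_nonneg (c x x - c x' x)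
  have h3 : 0 < dist x x' := dist_pos.2 h
  nlinarith

theorem Cost.cont (hc : Cost c δ L) : Continuous fun z : X × X => c z.1 z.2 := by
  rw [continuous_iff_continuousAt]
  rintro ⟨x, y⟩
  rw [ContinuousAt, tendsto_iff_dist_tendsto_zero]
  have h0 : Tendsto (fun z : X × X => L * dist z.1 x + L * dist z.2 y) (𝓝 (x, y)) (𝓝 0) := by
    have h1 : Tendsto (fun z : X × X => dist z.1 x) (𝓝 (x, y)) (𝓝 0) := by
      have : Continuous fun z : X × X => dist z.1 x := by fun_prop
      simpa using this.tendsto (x, y)
    have h2 : Tendsto (fun z : X × X => dist z.2 y) (𝓝 (x, y)) (𝓝 0) := by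
      have : Continuous fun z : X × X => dist z.2 y := by fun_prop
      simpa using this.tendsto (x, y)
    simpa using (h1.const_mul L).add (h2.const_mul L)
  refine squeeze_zero (fun _ => dist_nonneg) (fun z => ?_) h0
  have e : c z.1 z.2 - c x y = (c z.1 z.2 - c x z.2) + (c x z.2 - c x y) := by ring
  rw [Real.dist_eq, e]
  calc _ ≤ |c z.1 z.2 - c x z.2| + |c x z.2 - c x y| := abs_add_le _ _
    _ ≤ _ := add_le_add (hc.lip1 _ _ _) (hc.lip2 _ _ _)

variable [SecondCountableTopology X]

theorem Cost.integrable (hc : Cost c δ L) (γ : Measure (X × X)) [IsFiniteMeasure γ] :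
    Integrable (fun z : X × X => c z.1 z.2) γ := by
  refine Integrable.of_bound (C := δ) hc.cont.aestronglyMeasurable (Eventually.of_forall fun z => ?_)
  rw [Real.norm_eq_abs, abs_of_nonneg (hc.nonneg _ _)]
  exact hc.le _ _

theorem IsPlan.isProb {μ ν : Measure X} [IsProbabilityMeasure μ] {γ : Measure (X × X)}
    (h : IsPlan μ ν γ) : IsProbabilityMeasure γ := by
  constructor
  have h1 : γ.map Prod.fst univ = 1 := by rw [h.fst]; exact measure_univ
  rwa [Measure.map_apply measurable_fst MeasurableSet.univ, preimage_univ] at h1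

theorem isPlan_prod (μ ν : Measure X) [IsProbabilityMeasure μ] [IsProbabilityMeasure ν] :
    IsPlan μ ν (μ.prod ν) := by
  constructor
  · have := Measure.map_fst_prod (μ := μ) (ν := ν)
    simpa using this
  · have := Measure.map_snd_prod (μ := μ) (ν := ν)
    simpa using this

variable [CompleteSpace X]

/-- An optimal plan exists. -/
theorem exists_opt (hc : Cost c δ L) (μ ν : Measure X) [IsProbabilityMeasure μ]
    [IsProbabilityMeasure ν] : ∃ γ : Measure (X × X), IsPlan μ ν γ ∧
      ∀ γ' : Measure (X × X), IsPlan μ ν γ' → ∫ z, c z.1 z.2 ∂γ ≤ ∫ z, c z.1 z.2 ∂γ' := by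
  let S : Set (ProbabilityMeasure (X × X)) := {γ | IsPlan μ ν (γ : Measure (X × X))}
  have hSne : S.Nonempty := by
    refine ⟨⟨μ.prod ν, inferInstance⟩, isPlan_prod μ ν⟩
  let μ' : ProbabilityMeasure X := ⟨μ, inferInstance⟩
  let ν' : ProbabilityMeasure X := ⟨ν, inferInstance⟩
  have hScl : IsClosed S := by
    have h1 : S = {γ : ProbabilityMeasure (X × X) |
        γ.map (measurable_fst.aemeasurable (μ := (γ : Measure (X × X)))) = μ'} ∩
        {γ : ProbabilityMeasure (X × X) |
        γ.map (measurable_snd.aemeasurable (μ := (γ : Measure (X × X)))) = ν'} := by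
      ext γ
      constructor
      · intro h
        exact ⟨Subtype.ext h.fst, Subtype.ext h.snd⟩
      · rintro ⟨h1, h2⟩
        exact ⟨congrArg (fun t : ProbabilityMeasure X => (t : Measure X)) h1,
          congrArg (fun t : ProbabilityMeasure X => (t : Measure X)) h2⟩
    rw [h1]
    exact (isClosed_eq (ProbabilityMeasure.continuous_map continuous_fst) continuous_const).inter
      (isClosed_eq (ProbabilityMeasure.continuous_map continuous_snd) continuous_const)
  have hSt : IsTightMeasureSet {((γ : ProbabilityMeasure (X × X)) : Measure (X × X)) | γ ∈ S} := by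
    apply IsTightMeasureSet.prodMk
    · refine IsTightMeasureSet.subset (isTightMeasureSet_singleton (μ := μ)) ?_
      rintro _ ⟨_, ⟨γ, hγ, rfl⟩, rfl⟩
      exact hγ.fst
    · refine IsTightMeasureSet.subset (isTightMeasureSet_singleton (μ := ν)) ?_
      rintro _ ⟨_, ⟨γ, hγ, rfl⟩, rfl⟩
      exact hγ.snd
  have hScpt : IsCompact S := by
    have := isCompact_closure_of_isTightMeasureSet hSt
    rwa [hScl.closure_eq] at this
  let cb : (X × X) →ᵇ ℝ := BoundedContinuousFunction.ofNormedAddCommGroup
    (fun z : X × X => c z.1 z.2) hc.cont δ (fun z => by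
      rw [Real.norm_eq_abs, abs_of_nonneg (hc.nonneg _ _)]
      exact hc.le _ _)
  have hcont : Continuous fun γ : ProbabilityMeasure (X × X) => ∫ z, cb z ∂(γ : Measure (X × X)) := by
    rw [continuous_iff_continuousAt]
    intro γ
    exact (ProbabilityMeasure.tendsto_iff_forall_integral_tendsto.1 tendsto_id) cb
  obtain ⟨γ, hγ, hmin⟩ := hScpt.exists_isMinOn hSne hcont.continuousOn
  refine ⟨γ, hγ, fun γ' hγ' => ?_⟩
  haveI := hγ'.isProb
  exact hmin (show (⟨γ', inferInstance⟩ : ProbabilityMeasure (X × X)) ∈ S from hγ')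

end Vale.Agent.P233.H886
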